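import Mathlib

/-!
# Lengths of Hom-groups over an algebra

For a commutative ring `R`, an `R`-algebra `A` and left `A`-modules `M`, `N` we write
`homLen R A M N` for the length of the `R`-module `Hom_A(M, N)`.
-/

universe v u

namespace Vale.Agent.P195

section General

variable (R : Type v) [CommRing R] (A : Type u) [Ring A] [Algebra R A]

/-- The length over `R` of the `R`-module of `A`-linear maps `M → N`. -/
noncomputable def homLen (M N : Type u) [AddCommGroup M] [Module A M] [AddCommGroup N]
    [Module A N] : ℕ∞ :=
  letI : Module R N := Module.compHom N (algebraMap R A)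
  haveI : IsScalarTower R A N := ⟨fun r a x => by
    rw [Algebra.smul_def, mul_smul]; rfl⟩
  Module.length R (M →ₗ[A] N)

theorem homLen_eq (M N : Type u) [AddCommGroup M] [Module A M] [AddCommGroup N]
    [Module A N] [hN : Module R N] [hT : IsScalarTower R A N] :
    homLen R A M N = Module.length R (M →ₗ[A] N) := by
  have h : hN = Module.compHom N (algebraMap R A) := by
    refine Module.ext' _ _ fun r x => ?_
    exact (algebraMap_smul A r x).symm
  subst h
  rfl

/-- Restriction of scalars as a module structure. -/
@[reducible] noncomputable def resModule (N : Type u) [AddCommGroup N] [Module A N] :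
    Module R N :=
  Module.compHom N (algebraMap R A)

theorem resTower (N : Type u) [AddCommGroup N] [Module A N] :
    letI := resModule R A N
    IsScalarTower R A N := by
  let _ := resModule R A N
  exact ⟨fun r a x => by rw [Algebra.smul_def, mul_smul]; rfl⟩

end General

section Maps

variable {R : Type v} [CommRing R] {A : Type u} [Ring A] [Algebra R A]
variable {M M' N N' : Type u} [AddCommGroup M] [Module A M] [AddCommGroup M'] [Module A M']
  [AddCommGroup N] [Module A N] [Module R N] [IsScalarTower R A N]
  [AddCommGroup N'] [Module A N'] [Module R N'] [IsScalarTower R A N']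

variable (R) in
/-- `f ↦ j ∘ f ∘ q` as an `R`-linear map. -/
def sandwich (q : M →ₗ[A] M') (j : N →ₗ[A] N') : (M' →ₗ[A] N) →ₗ[R] (M →ₗ[A] N') where
  toFun f := j.comp (f.comp q)
  map_add' f g := by ext x; simp
  map_smul' r f := by ext x; simp

@[simp] theorem sandwich_apply (q : M →ₗ[A] M') (j : N →ₗ[A] N') (f : M' →ₗ[A] N) :
    sandwich R q j f = j.comp (f.comp q) := rfl

theorem sandwich_injective (q : M →ₗ[A] M') (j : N →ₗ[A] N') (hq : Function.Surjective q)
    (hj : Function.Injective j) : Function.Injective (sandwich R q j) := by
  intro f g hfg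
  ext x
  obtain ⟨y, rfl⟩ := hq x
  apply hj
  exact LinearMap.congr_fun hfg y

end Maps

section API

variable (R : Type v) [CommRing R] (A : Type u) [Ring A] [Algebra R A]
variable {M M' M'' N N' N'' : Type u} [AddCommGroup M] [Module A M] [AddCommGroup M']
  [Module A M'] [AddCommGroup M''] [Module A M''] [AddCommGroup N] [Module A N]
  [AddCommGroup N'] [Module A N'] [AddCommGroup N''] [Module A N'']

/-- Isomorphism invariance. -/
theorem homLen_congr (e : M ≃ₗ[A] M') (e' : N ≃ₗ[A] N') :
    homLen R A M N = homLen R A M' N' := by
  let _ := resModule R A N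
  have := resTower R A N
  let _ := resModule R A N'
  have := resTower R A N'
  rw [homLen_eq R A M N, homLen_eq R A M' N']
  refine LinearEquiv.length_eq (LinearEquiv.ofBijective
    (sandwich R e.symm.toLinearMap e'.toLinearMap) ⟨?_, ?_⟩)
  · exact sandwich_injective _ _ e.symm.surjective e'.injective
  · intro f
    refine ⟨e'.symm.toLinearMap.comp (f.comp e.toLinearMap), ?_⟩
    ext x
    simp

/-- Additivity in the first variable for a short exact sequence along which all maps extend. -/
theorem homLen_add_left (i : M' →ₗ[A] M) (p : M →ₗ[A] M'')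
    (hp : Function.Surjective p) (hexact : Function.Exact i p)
    (hext : ∀ f : M' →ₗ[A] N, ∃ g : M →ₗ[A] N, g.comp i = f) :
    homLen R A M N = homLen R A M'' N + homLen R A M' N := by
  let _ := resModule R A N
  have := resTower R A N
  rw [homLen_eq R A M N, homLen_eq R A M' N, homLen_eq R A M'' N]
  refine Module.length_eq_add_of_exact (sandwich R p (LinearMap.id : N →ₗ[A] N))
    (sandwich R i (LinearMap.id : N →ₗ[A] N)) ?_ ?_ ?_
  · exact sandwich_injective _ _ hp Function.injective_id
  · intro f
    obtain ⟨g, hg⟩ := hext f
    exact ⟨g, by rw [sandwich_apply, hg]; rfl⟩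
  · intro f
    constructor
    · intro hf
      have hker : LinearMap.ker p ≤ LinearMap.ker f := by
        intro x hx
        obtain ⟨y, rfl⟩ := (hexact x).1 hx
        exact LinearMap.congr_fun hf y
      refine ⟨(LinearMap.ker p).liftQ f hker ∘ₗ
        (p.quotKerEquivOfSurjective hp).symm.toLinearMap, ?_⟩
      ext x
      simp only [sandwich_apply, LinearMap.comp_apply, LinearMap.id_apply, LinearEquiv.coe_coe]
      have : (p.quotKerEquivOfSurjective hp).symm (p x) = (LinearMap.ker p).mkQ x := by
        rw [LinearEquiv.symm_apply_eq]
        rfl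
      rw [this]
      simp
    · rintro ⟨g, rfl⟩
      ext x
      simp only [sandwich_apply, LinearMap.comp_apply, LinearMap.id_apply, LinearMap.zero_apply]
      rw [(hexact (i x)).2 ⟨x, rfl⟩, map_zero]

/-- Additivity in the second variable for a short exact sequence along which all maps lift. -/
theorem homLen_add_right (i : N' →ₗ[A] N) (p : N →ₗ[A] N'')
    (hi : Function.Injective i) (hexact : Function.Exact i p)
    (hlift : ∀ f : M →ₗ[A] N'', ∃ g : M →ₗ[A] N, p.comp g = f) :
    homLen R A M N = homLen R A M N' + homLen R A M N'' := by
  let _ := resModule R A N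
  have := resTower R A N
  let _ := resModule R A N'
  have := resTower R A N'
  let _ := resModule R A N''
  have := resTower R A N''
  rw [homLen_eq R A M N, homLen_eq R A M N', homLen_eq R A M N'']
  refine Module.length_eq_add_of_exact (sandwich R (LinearMap.id : M →ₗ[A] M) i)
    (sandwich R (LinearMap.id : M →ₗ[A] M) p) ?_ ?_ ?_
  · exact sandwich_injective _ _ Function.surjective_id hi
  · intro f
    obtain ⟨g, hg⟩ := hlift f
    exact ⟨g, by rw [sandwich_apply]; exact hg⟩
  · intro f
    constructor
    · intro hf
      have hrange : ∀ x, f x ∈ LinearMap.range i := by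
        intro x
        have : p (f x) = 0 := LinearMap.congr_fun hf x
        obtain ⟨y, hy⟩ := (hexact (f x)).1 this
        exact ⟨y, hy⟩
      refine ⟨(LinearEquiv.ofInjective i hi).symm.toLinearMap ∘ₗ f.codRestrict _ hrange, ?_⟩
      ext x
      simp only [sandwich_apply, LinearMap.comp_apply, LinearMap.id_apply, LinearEquiv.coe_coe]
      have := LinearEquiv.apply_symm_apply (LinearEquiv.ofInjective i hi)
        (f.codRestrict _ hrange x)
      exact congrArg Subtype.val this
    · rintro ⟨g, rfl⟩
      ext x
      simp only [sandwich_apply, LinearMap.comp_apply, LinearMap.id_apply, LinearMap.zero_apply]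
      exact (hexact _).2 ⟨g x, rfl⟩

/-- Direct sums in the first variable. -/
theorem homLen_pi_left {ι : Type} [Fintype ι] [DecidableEq ι] (Z : ι → Type u)
    [∀ i, AddCommGroup (Z i)] [∀ i, Module A (Z i)] :
    homLen R A (∀ i, Z i) N = ∑ i, homLen R A (Z i) N := by
  let _ := resModule R A N
  have := resTower R A N
  rw [homLen_eq R A (∀ i, Z i) N, ← LinearEquiv.length_eq (LinearMap.lsum A Z R (M := N)),
    Module.length_pi_of_fintype]
  refine Finset.sum_congr rfl fun i _ => ?_
  rw [homLen_eq]

/-- If `q : M → M'` is surjective and `j : N' → N` is injective then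
`Hom(M', N')` embeds into `Hom(M, N)`. -/
theorem homLen_le (q : M →ₗ[A] M') (j : N' →ₗ[A] N) (hq : Function.Surjective q)
    (hj : Function.Injective j) : homLen R A M' N' ≤ homLen R A M N := by
  let _ := resModule R A N
  have := resTower R A N
  let _ := resModule R A N'
  have := resTower R A N'
  rw [homLen_eq R A M N, homLen_eq R A M' N']
  exact Module.length_le_of_injective _ (sandwich_injective q j hq hj)

/-- The embedding is bijective if every map factors. -/
theorem homLen_eq_of_factor (q : M →ₗ[A] M') (j : N' →ₗ[A] N) (hq : Function.Surjective q)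
    (hj : Function.Injective j)
    (h : ∀ f : M →ₗ[A] N, ∃ g : M' →ₗ[A] N', j.comp (g.comp q) = f) :
    homLen R A M N = homLen R A M' N' := by
  let _ := resModule R A N
  have := resTower R A N
  let _ := resModule R A N'
  have := resTower R A N'
  rw [homLen_eq R A M N, homLen_eq R A M' N']
  exact (LinearEquiv.length_eq (LinearEquiv.ofBijective (sandwich R q j)
    ⟨sandwich_injective q j hq hj, h⟩)).symm

variable [IsArtinianRing R] [Module.Finite R A]

theorem homLen_ne_top [Module.Finite A M] [Module.Finite A N] : homLen R A M N ≠ ⊤ := by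
  let _ := resModule R A N
  have := resTower R A N
  have : Module.Finite R N := Module.Finite.trans A N
  rw [homLen_eq R A M N]
  obtain ⟨n, f, hf⟩ := Module.Finite.exists_fin' A M
  let φ : (M →ₗ[A] N) →ₗ[R] (Fin n → N) :=
    { toFun := fun g i => g (f (Pi.single i 1))
      map_add' := fun g h => by ext i; simp
      map_smul' := fun r g => by ext i; simp }
  have hφ : Function.Injective φ := by
    intro g h hgh
    have : g.comp f = h.comp f := by
      refine LinearMap.pi_ext' fun i => ?_
      refine LinearMap.ext_ring ?_
      exact congrFun hgh i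
    ext x
    obtain ⟨y, rfl⟩ := hf x
    exact LinearMap.congr_fun this y
  exact ne_top_of_le_ne_top (Module.length_ne_top (R := R) (M := Fin n → N))
    (Module.length_le_of_injective φ hφ)

theorem hom_finiteLength [Module.Finite A M] [Module.Finite A N] [Module R N]
    [IsScalarTower R A N] : IsFiniteLength R (M →ₗ[A] N) := by
  rw [← Module.length_ne_top_iff, ← homLen_eq R A M N]
  exact homLen_ne_top R A

/-- Strict inequality if some map does not factor. -/
theorem homLen_lt [Module.Finite A M] [Module.Finite A N]
    (q : M →ₗ[A] M') (j : N' →ₗ[A] N) (hq : Function.Surjective q)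
    (hj : Function.Injective j) (f : M →ₗ[A] N)
    (hf : ∀ g : M' →ₗ[A] N', j.comp (g.comp q) ≠ f) :
    homLen R A M' N' < homLen R A M N := by
  let _ := resModule R A N
  have := resTower R A N
  let _ := resModule R A N'
  have := resTower R A N'
  have hfl : IsFiniteLength R (M →ₗ[A] N) := hom_finiteLength R A
  rw [isFiniteLength_iff_isNoetherian_isArtinian] at hfl
  obtain ⟨h1, h2⟩ := hfl
  rw [homLen_eq R A M N, homLen_eq R A M' N']
  have hne : LinearMap.range (sandwich R q j) ≠ ⊤ := by
    intro h
    obtain ⟨g, hg⟩ := LinearMap.range_eq_top.1 h f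
    exact hf g hg
  have := Submodule.length_lt hne
  rwa [← LinearEquiv.length_eq (LinearEquiv.ofInjective _ (sandwich_injective q j hq hj))] at this

end API

end Vale.Agent.P195
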