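import Mathlib

/-!
# Minimal projective presentations over Artinian rings
-/

universe u

namespace Vale.Agent.P195

open CategoryTheory

variable {A : Type u} [Ring A]

theorem semisimple_of_jacobson_smul_eq_zero [IsArtinianRing A] (M : Type u) [AddCommGroup M]
    [Module A M] (h : ∀ j ∈ Ring.jacobson A, ∀ m : M, j • m = 0) : IsSemisimpleModule A M := by
  have h' : Module.IsTorsionBySet A M (Ring.jacobson A) := fun m a => h a a.2 m
  let _ := h'.module
  exact (h'.semilinearMap.isSemisimpleModule_iff_of_bijective Function.bijective_id).2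
    inferInstance

theorem jacobson_le_jacobson_smul [IsArtinianRing A] (M : Type u) [AddCommGroup M]
    [Module A M] : Module.jacobson A M ≤ Ring.jacobson A • (⊤ : Submodule A M) := by
  apply Module.jacobson_le_of_eq_bot
  have : IsSemisimpleModule A (M ⧸ (Ring.jacobson A • (⊤ : Submodule A M))) := by
    apply semisimple_of_jacobson_smul_eq_zero
    intro j hj m
    obtain ⟨x, rfl⟩ := Submodule.mkQ_surjective _ m
    rw [← map_smul, Submodule.mkQ_apply, Submodule.Quotient.mk_eq_zero]
    exact Submodule.smul_mem_smul hj trivial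
  exact IsSemisimpleModule.jacobson_eq_bot A _

/-- Every finitely generated module `X` over an Artinian ring is the image of a finitely
generated projective module `P` by a map whose kernel is contained in `rad P`. -/
theorem exists_minimal_presentation [IsArtinianRing A] (X : Type u) [AddCommGroup X]
    [Module A X] [Module.Finite A X] :
    ∃ (P : ModuleCat.{u} A) (π : P →ₗ[A] X), Module.Finite A P ∧ Module.Projective A P ∧
      Function.Surjective π ∧ LinearMap.ker π ≤ Ring.jacobson A • (⊤ : Submodule A P) := by
  let T : Set ℕ∞ := {n | ∃ (P : ModuleCat.{u} A) (π : P →ₗ[A] X), Module.Finite A P ∧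
    Module.Projective A P ∧ Function.Surjective π ∧ Module.length A P = n}
  have hT : T.Nonempty := by
    obtain ⟨k, f, hf⟩ := Module.Finite.exists_fin' A X
    exact ⟨_, ModuleCat.of A (Fin k → A), f, inferInstanceAs (Module.Finite A (Fin k → A)),
      inferInstanceAs (Module.Projective A (Fin k → A)), hf, rfl⟩
  obtain ⟨n, ⟨P, π, hfin, hproj, hsurj, hlen⟩, hmin⟩ := WellFounded.has_min wellFounded_lt T hT
  refine ⟨P, π, hfin, hproj, hsurj, ?_⟩
  by_contra hcon
  have hN : ∃ N : Submodule A P, IsCoatom N ∧ ¬ (LinearMap.ker π ≤ N) := by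
    by_contra h
    push Not at h
    exact hcon ((le_sInf fun N hN => h N hN).trans (jacobson_le_jacobson_smul (A := A) P))
  obtain ⟨N, hN, hkN⟩ := hN
  have hsup : N ⊔ LinearMap.ker π = ⊤ := by
    apply hN.2
    refine lt_of_le_of_ne le_sup_left fun h => hkN ?_
    rw [h]
    exact le_sup_right
  -- the restriction of `π` to `N` is surjective
  have hsurjN : Function.Surjective (π.comp N.subtype) := by
    intro x
    obtain ⟨p, rfl⟩ := hsurj x
    have hp : p ∈ N ⊔ LinearMap.ker π := by rw [hsup]; trivial
    obtain ⟨y, hy, z, hz, rfl⟩ := Submodule.mem_sup.1 hp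
    refine ⟨⟨y, hy⟩, ?_⟩
    rw [map_add, LinearMap.mem_ker.1 hz, add_zero]
    rfl
  obtain ⟨h, hh⟩ := Module.projective_lifting_property (π.comp N.subtype) π hsurjN
  let f : Module.End A P := N.subtype.comp h
  have hπf : π.comp f = π := hh
  have hrange : LinearMap.range f ≤ N := by
    rintro _ ⟨x, rfl⟩
    exact (h x).2
  have hpow : ∀ k : ℕ, π.comp (f ^ k) = π := by
    intro k
    induction k with
    | zero => rfl
    | succ k ih =>
      rw [pow_succ']
      change (π.comp f).comp (f ^ k) = π
      rw [hπf, ih]
  obtain ⟨k, hk⟩ := Filter.eventually_atTop.1 f.eventually_isCompl_ker_pow_range_pow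
  have hcompl := hk (k + 1) (Nat.le_succ k)
  set Q : Submodule A P := LinearMap.range (f ^ (k + 1)) with hQ
  have hQN : Q ≤ N := by
    rintro _ ⟨x, rfl⟩
    rw [pow_succ']
    exact hrange ⟨(f ^ k) x, rfl⟩
  -- `Q` is a direct summand
  have hQproj : Module.Projective A Q :=
    Module.Projective.of_split Q.subtype (Submodule.projectionOnto Q _ hcompl.symm)
      (by
        refine LinearMap.ext fun x => ?_
        exact Submodule.projectionOnto_apply_left hcompl.symm x)
  have hQsurj : Function.Surjective (π.comp Q.subtype) := by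
    intro x
    obtain ⟨p, rfl⟩ := hsurj x
    refine ⟨⟨(f ^ (k + 1)) p, ⟨p, rfl⟩⟩, ?_⟩
    exact LinearMap.congr_fun (hpow (k + 1)) p
  have hlt : Module.length A Q < Module.length A P :=
    Submodule.length_lt fun h => hN.1 (top_le_iff.1 (h ▸ hQN))
  rw [hlen] at hlt
  exact hmin _ ⟨ModuleCat.of A Q, π.comp Q.subtype, inferInstanceAs (Module.Finite A Q), hQproj,
    hQsurj, rfl⟩ hlt

end Vale.Agent.P195
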