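import Mathlib

/-!
# A triangular matrix with nonzero diagonal has full rank
-/

namespace Vale.Agent.P195

/-- If a square array `C i j = ∑ k, u k i * v k j` of size `K` factors through fewer than `K`
indices `k`, then it cannot be upper triangular with nonzero diagonal entries. -/
theorem no_small_factorization {K : ℕ} {κ : Type*} [Fintype κ] (hκ : Fintype.card κ < K)
    (C : Fin K → Fin K → ℚ) (u v : κ → Fin K → ℚ)
    (hC : ∀ i j, C i j = ∑ k, u k i * v k j)
    (htri : ∀ i j, j < i → C i j = 0) (hdiag : ∀ i, C i i ≠ 0) : False := by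
  classical
  let f : (Fin K → ℚ) →ₗ[ℚ] (κ → ℚ) :=
    LinearMap.pi fun k => ∑ i, (u k i) • LinearMap.proj i
  have hf : ∀ w k, f w k = ∑ i, u k i * w i := by
    intro w k
    simp [f]
  have hlt : Module.finrank ℚ (κ → ℚ) < Module.finrank ℚ (Fin K → ℚ) := by
    simpa using hκ
  have hker := LinearMap.ker_ne_bot_of_finrank_lt (f := f) hlt
  obtain ⟨w, hw, hw0⟩ := (Submodule.ne_bot_iff _).1 hker
  have hw' : ∀ k, ∑ i, u k i * w i = 0 := by
    intro k
    rw [← hf]
    rw [LinearMap.mem_ker.1 hw]
    rfl
  have hsum : ∀ j, ∑ i, w i * C i j = 0 := by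
    intro j
    calc ∑ i, w i * C i j = ∑ i, ∑ k, (u k i * w i) * v k j := by
          refine Finset.sum_congr rfl fun i _ => ?_
          rw [hC, Finset.mul_sum]
          refine Finset.sum_congr rfl fun k _ => ?_
          ring
      _ = ∑ k, (∑ i, u k i * w i) * v k j := by
          rw [Finset.sum_comm]
          refine Finset.sum_congr rfl fun k _ => ?_
          rw [Finset.sum_mul]
      _ = 0 := by simp [hw']
  obtain ⟨i0, hi0⟩ : ∃ i, w i ≠ 0 := by
    by_contra hcon
    push Not at hcon
    exact hw0 (funext hcon)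
  -- smallest index with `w j ≠ 0`
  obtain ⟨j, hj, hjmin⟩ := WellFounded.has_min (wellFounded_lt (α := Fin K)) {i | w i ≠ 0} ⟨i0, hi0⟩
  have hval : ∑ i, w i * C i j = w j * C j j := by
    rw [Finset.sum_eq_single j]
    · intro i _ hij
      rcases lt_or_gt_of_ne hij with h | h
      · have : w i = 0 := by
          by_contra hne
          exact hjmin i hne h
        rw [this, zero_mul]
      · rw [htri i j h, mul_zero]
    · simp
  rw [hsum] at hval
  rcases mul_eq_zero.1 hval.symm with h | h
  · exact hj h
  · exact hdiag j h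

end Vale.Agent.P195
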