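import Mathlib
import Vale.Agent.P195.HomLen

/-!
# Finitely many simple modules, and lengths of Hom-groups
-/

universe v u

namespace Vale.Agent.P195

open CategoryTheory

variable {A : Type u} [Ring A]

/-- For a module `X` of finite length there is a finite list of simple modules such that every
simple module receiving a nonzero map from `X` is isomorphic to a member of the list. -/
theorem exists_simple_list_of_finiteLength (X : Type u) [AddCommGroup X] [Module A X]
    (hX : IsFiniteLength A X) :
    ∃ (r : ℕ) (S : Fin r → ModuleCat.{u} A), (∀ i, IsSimpleModule A (S i)) ∧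
      ∀ (T : Type u) [AddCommGroup T] [Module A T] [IsSimpleModule A T] (f : X →ₗ[A] T),
        f ≠ 0 → ∃ i, Nonempty (T ≃ₗ[A] S i) := by
  induction hX with
  | of_subsingleton =>
    refine ⟨0, Fin.elim0, fun i => i.elim0, ?_⟩
    intro T _ _ _ f hf
    exact absurd (LinearMap.ext fun x => by
      rw [Subsingleton.elim x 0, map_zero, map_zero]) hf
  | @of_simple_quotient X _ _ N hsimple hN ih =>
    obtain ⟨r, S, hS, hT⟩ := ih
    refine ⟨r + 1, Fin.cons (ModuleCat.of A (X ⧸ N)) S, ?_, ?_⟩
    · intro i
      refine Fin.cases ?_ (fun i => ?_) i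
      · exact hsimple
      · exact hS i
    · intro T _ _ _ f hf
      by_cases h : f.comp N.subtype = 0
      · have hker : N ≤ LinearMap.ker f := by
          intro x hx
          exact LinearMap.congr_fun h ⟨x, hx⟩
        have hne : N.liftQ f hker ≠ 0 := by
          intro h0
          apply hf
          ext x
          have := LinearMap.congr_fun h0 (N.mkQ x)
          simpa using this
        refine ⟨0, ⟨?_⟩⟩
        exact (LinearEquiv.ofBijective _ (LinearMap.bijective_of_ne_zero hne)).symm
      · obtain ⟨i, hi⟩ := hT T (f.comp N.subtype) h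
        exact ⟨i.succ, hi⟩

/-- Over an Artinian ring there are only finitely many simple modules up to isomorphism. -/
theorem exists_simple_list [IsArtinianRing A] :
    ∃ (r : ℕ) (S : Fin r → ModuleCat.{u} A), (∀ i, IsSimpleModule A (S i)) ∧
      ∀ (T : Type u) [AddCommGroup T] [Module A T] [IsSimpleModule A T],
        ∃ i, Nonempty (T ≃ₗ[A] S i) := by
  obtain ⟨r, S, hS, hT⟩ := exists_simple_list_of_finiteLength A
    ((isArtinianRing_iff_isFiniteLength A).1 inferInstance)
  refine ⟨r, S, hS, ?_⟩
  intro T _ _ _
  have : Nontrivial T := IsSimpleModule.nontrivial A T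
  obtain ⟨t, ht⟩ := exists_ne (0 : T)
  refine hT T (LinearMap.toSpanSingleton A T t) ?_
  intro h
  apply ht
  have := LinearMap.congr_fun h (1 : A)
  simpa using this

section Length

variable (R : Type v) [CommRing R] [Algebra R A]

/-- For a projective module `P`, the length of `Hom(P, N)` is a fixed nonnegative integral
combination of the lengths of `Hom(P, S)` with `S` simple. -/
theorem homLen_projective_combination {r : ℕ} (S : Fin r → ModuleCat.{u} A)
    (hS : ∀ (T : Type u) [AddCommGroup T] [Module A T] [IsSimpleModule A T],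
        ∃ i, Nonempty (T ≃ₗ[A] S i))
    (N : Type u) [AddCommGroup N] [Module A N] (hN : IsFiniteLength A N) :
    ∃ c : Fin r → ℕ, ∀ (P : Type u) [AddCommGroup P] [Module A P] [Module.Projective A P],
      homLen R A P N = ∑ i, (c i : ℕ∞) * homLen R A P (S i) := by
  induction hN with
  | @of_subsingleton N _ _ _ =>
    refine ⟨fun _ => 0, ?_⟩
    intro P _ _ _
    let _ := resModule R A N
    have := resTower R A N
    rw [homLen_eq R A P N]
    have : Subsingleton (P →ₗ[A] N) := ⟨fun f g => LinearMap.ext fun x => Subsingleton.elim _ _⟩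
    simp [Module.length_eq_zero]
  | @of_simple_quotient N _ _ K hsimple hK ih =>
    obtain ⟨c, hc⟩ := ih
    obtain ⟨i0, ⟨e⟩⟩ := hS (N ⧸ K)
    refine ⟨fun i => c i + if i = i0 then 1 else 0, ?_⟩
    intro P _ _ _
    rw [homLen_add_right R A (M := P) K.subtype K.mkQ K.injective_subtype
      (LinearMap.exact_subtype_mkQ K)
      (fun f => Module.projective_lifting_property K.mkQ f K.mkQ_surjective), hc P,
      homLen_congr R A (LinearEquiv.refl A P) e]
    simp only [Nat.cast_add, add_mul, Finset.sum_add_distrib, Nat.cast_ite, Nat.cast_one,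
      Nat.cast_zero, ite_mul, one_mul, zero_mul, Finset.sum_ite_eq', Finset.mem_univ, if_true]

/-- For a semisimple module `N` of finite length, the length of `Hom(Q, N)` is a fixed
nonnegative integral combination of the lengths of `Hom(Q, S)` with `S` simple. -/
theorem homLen_semisimple_combination {r : ℕ} (S : Fin r → ModuleCat.{u} A)
    (hS : ∀ (T : Type u) [AddCommGroup T] [Module A T] [IsSimpleModule A T],
        ∃ i, Nonempty (T ≃ₗ[A] S i))
    (N : Type u) [AddCommGroup N] [Module A N] (hN : IsFiniteLength A N)
    (hss : IsSemisimpleModule A N) :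
    ∃ c : Fin r → ℕ, ∀ (Q : Type u) [AddCommGroup Q] [Module A Q],
      homLen R A Q N = ∑ i, (c i : ℕ∞) * homLen R A Q (S i) := by
  induction hN with
  | @of_subsingleton N _ _ _ =>
    refine ⟨fun _ => 0, ?_⟩
    intro P _ _
    let _ := resModule R A N
    have := resTower R A N
    rw [homLen_eq R A P N]
    have : Subsingleton (P →ₗ[A] N) := ⟨fun f g => LinearMap.ext fun x => Subsingleton.elim _ _⟩
    simp [Module.length_eq_zero]
  | @of_simple_quotient N _ _ K hsimple hK ih =>
    obtain ⟨c, hc⟩ := ih inferInstance
    obtain ⟨i0, ⟨e⟩⟩ := hS (N ⧸ K)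
    refine ⟨fun i => c i + if i = i0 then 1 else 0, ?_⟩
    intro Q _ _
    -- a section of the quotient map
    obtain ⟨C, hC⟩ := exists_isCompl K
    have hsec : ∃ s : (N ⧸ K) →ₗ[A] N, K.mkQ.comp s = LinearMap.id := by
      refine ⟨C.subtype ∘ₗ (Submodule.quotientEquivOfIsCompl K C hC).toLinearMap, ?_⟩
      refine Submodule.linearMap_qext _ ?_
      ext x
      have := Submodule.mkQ_apply K ((Submodule.quotientEquivOfIsCompl K C hC (K.mkQ x) : C) : N)
      simp only [LinearMap.comp_apply, LinearMap.id_apply, LinearEquiv.coe_coe,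
        Submodule.subtype_apply]
      have h2 := LinearEquiv.symm_apply_apply (Submodule.quotientEquivOfIsCompl K C hC) (K.mkQ x)
      rw [Submodule.quotientEquivOfIsCompl_symm_apply] at h2
      exact h2
    obtain ⟨s, hs⟩ := hsec
    rw [homLen_add_right R A (M := Q) K.subtype K.mkQ K.injective_subtype
      (LinearMap.exact_subtype_mkQ K)
      (fun f => ⟨s.comp f, by rw [← LinearMap.comp_assoc, hs, LinearMap.id_comp]⟩), hc Q,
      homLen_congr R A (LinearEquiv.refl A Q) e]
    simp only [Nat.cast_add, add_mul, Finset.sum_add_distrib, Nat.cast_ite, Nat.cast_one,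
      Nat.cast_zero, ite_mul, one_mul, zero_mul, Finset.sum_ite_eq', Finset.mem_univ, if_true]

end Length

end Vale.Agent.P195
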