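import Mathlib
import Vale.Agent.P195.RankLemma
import Vale.Agent.P195.HomLen
import Vale.Agent.P195.Simples
import Vale.Agent.P195.Minimal

/-!
# Chains of syzygies and the rank argument
-/

universe v u

namespace Vale.Agent.P195

open CategoryTheory

/-- A minimal projective resolution of `M 0`, recorded through its short exact sequences
`0 → M (m+1) → P m → M m → 0`. -/
structure SyzygyChain (A : Type u) [Ring A] where
  /-- the syzygies -/
  M : ℕ → ModuleCat.{u} A
  /-- the projective modules -/
  P : ℕ → ModuleCat.{u} A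
  /-- the inclusions -/
  incl : ∀ m, M (m + 1) →ₗ[A] P m
  /-- the projections -/
  proj : ∀ m, P m →ₗ[A] M m
  finP : ∀ m, Module.Finite A (P m)
  projP : ∀ m, Module.Projective A (P m)
  finM : ∀ m, Module.Finite A (M m)
  inj : ∀ m, Function.Injective (incl m)
  surj : ∀ m, Function.Surjective (proj m)
  exact : ∀ m, Function.Exact (incl m) (proj m)
  minimal : ∀ m, LinearMap.range (incl m) ≤ Ring.jacobson A • (⊤ : Submodule A (P m))

theorem exists_chain {A : Type u} [Ring A] [IsArtinianRing A] (X : ModuleCat.{u} A)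
    (hX : Module.Finite A X) : ∃ c : SyzygyChain A, c.M 0 = X := by
  classical
  let F := {Y : ModuleCat.{u} A // Module.Finite A Y}
  have key : ∀ Y : F, ∃ (P : ModuleCat.{u} A) (π : P →ₗ[A] Y.1), Module.Finite A P ∧
      Module.Projective A P ∧ Function.Surjective π ∧
      LinearMap.ker π ≤ Ring.jacobson A • (⊤ : Submodule A P) := by
    intro Y
    have := Y.2
    exact exists_minimal_presentation Y.1
  choose P π hP1 hP2 hP3 hP4 using key
  have hfin : ∀ Y : F, Module.Finite A (LinearMap.ker (π Y)) := by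
    intro Y
    have := hP1 Y
    infer_instance
  let K : F → F := fun Y => ⟨ModuleCat.of A (LinearMap.ker (π Y)), hfin Y⟩
  let s : ℕ → F := fun m => Nat.rec ⟨X, hX⟩ (fun _ Y => K Y) m
  refine ⟨{
    M := fun m => (s m).1
    P := fun m => P (s m)
    incl := fun m => (LinearMap.ker (π (s m))).subtype
    proj := fun m => π (s m)
    finP := fun m => hP1 _
    projP := fun m => hP2 _
    finM := fun m => (s m).2
    inj := fun m => Submodule.injective_subtype _
    surj := fun m => hP3 _
    exact := fun m => LinearMap.exact_subtype_ker_map _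
    minimal := fun m => ?_ }, rfl⟩
  rw [Submodule.range_subtype]
  exact hP4 _

section Core

variable (R : Type v) [CommRing R] (A : Type u) [Ring A] [Algebra R A]

/-- The natural-number valued version of `homLen`. -/
noncomputable def hl (M N : Type u) [AddCommGroup M] [Module A M] [AddCommGroup N]
    [Module A N] : ℕ := (homLen R A M N).toNat

variable [IsArtinianRing R] [Module.Finite R A]

theorem coe_hl (M N : Type u) [AddCommGroup M] [Module A M] [AddCommGroup N]
    [Module A N] [Module.Finite A M] [Module.Finite A N] :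
    ((hl R A M N : ℕ) : ℕ∞) = homLen R A M N :=
  ENat.natCast_toNat (homLen_ne_top R A)

/-- The rank argument. -/
theorem core_contradiction {r : ℕ} (S : Fin r → ModuleCat.{u} A)
    (hsimple : ∀ i, IsSimpleModule A (S i))
    (hS : ∀ (T : Type u) [AddCommGroup T] [Module A T] [IsSimpleModule A T],
        ∃ i, Nonempty (T ≃ₗ[A] S i))
    (c : SyzygyChain A) {t : ℕ}
    (hext : ∀ m n, n ≤ m → m ≤ r + t + 1 → ∀ f : c.M (m + 1) →ₗ[A] c.M n,
      ∃ g : c.P m →ₗ[A] c.M n, g.comp (c.incl m) = f)
    (g : ℕ → ℕ → ℕ) (x y : Fin t → ℕ → ℕ)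
    (hg : ∀ m n, 1 ≤ m → 1 ≤ n → m ≤ r + t + 2 → n ≤ r + t + 1 →
      g m n = ∑ i, x i m * y i n)
    (hlow : ∀ m n, 1 ≤ n → n < m → m ≤ r + t + 2 → hl R A (c.M m) (c.M n) = g m n)
    (hdiag : ∀ n, 1 ≤ n → n ≤ r + t + 1 → g n n < hl R A (c.M n) (c.M n)) : False := by
  classical
  have hfinM := c.finM
  have hfinP := c.finP
  have hprojP := c.projP
  have hart : IsArtinianRing A := IsArtinianRing.of_finite R A
  -- the combination for the projectives
  have hcomb : ∀ n, ∃ d : Fin r → ℕ, ∀ m, hl R A (c.P m) (c.M n) =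
      ∑ i, d i * hl R A (c.P m) (S i) := by
    intro n
    have hfl : IsFiniteLength A (c.M n) := ((IsArtinianRing.tfae A (c.M n)).out 0 3).1 (hfinM n)
    obtain ⟨d, hd⟩ := homLen_projective_combination R S hS (c.M n) hfl
    refine ⟨d, fun m => ?_⟩
    have h1 := hd (c.P m)
    rw [← coe_hl R A (c.P m) (c.M n)] at h1
    have h2 : ∀ i, homLen R A (c.P m) (S i) = (hl R A (c.P m) (S i) : ℕ∞) := by
      intro i
      have := hsimple i
      exact (coe_hl R A _ _).symm
    simp only [h2] at h1
    exact_mod_cast h1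
  choose d hd using hcomb
  -- additivity
  have hadd : ∀ m n, n ≤ m → m ≤ r + t + 1 →
      hl R A (c.P m) (c.M n) = hl R A (c.M m) (c.M n) + hl R A (c.M (m + 1)) (c.M n) := by
    intro m n hnm hm
    have := homLen_add_left R A (N := c.M n) (c.incl m) (c.proj m) (c.surj m) (c.exact m)
      (hext m n hnm hm)
    rw [← coe_hl R A (c.P m) (c.M n), ← coe_hl R A (c.M m) (c.M n),
      ← coe_hl R A (c.M (m + 1)) (c.M n)] at this
    exact_mod_cast this
  let C : Fin (r + t + 1) → Fin (r + t + 1) → ℚ := fun i j =>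
    (hl R A (c.P (i + 1)) (c.M (j + 1)) : ℚ) - g (i + 1) (j + 1) - g (i + 2) (j + 1)
  let u : Fin r ⊕ Fin t → Fin (r + t + 1) → ℚ := fun k i =>
    Sum.elim (fun k => (hl R A (c.P (i + 1)) (S k) : ℚ))
      (fun k => -((x k (i + 1) : ℚ) + x k (i + 2))) k
  let w : Fin r ⊕ Fin t → Fin (r + t + 1) → ℚ := fun k j =>
    Sum.elim (fun k => (d (j + 1) k : ℚ)) (fun k => (y k (j + 1) : ℚ)) k
  refine no_small_factorization (κ := Fin r ⊕ Fin t) (by simp) C u w ?_ ?_ ?_
  · intro i j
    have hi := i.2
    have hj := j.2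
    simp only [C, u, w, Fintype.sum_sum_type, Sum.elim_inl, Sum.elim_inr]
    rw [hd (j + 1) (i + 1), hg (i + 1) (j + 1) (by omega) (by omega) (by omega) (by omega),
      hg (i + 2) (j + 1) (by omega) (by omega) (by omega) (by omega)]
    push_cast
    rw [sub_sub, sub_eq_add_neg, ← Finset.sum_add_distrib, ← Finset.sum_neg_distrib]
    congr 1
    · exact Finset.sum_congr rfl fun k _ => by ring
    · exact Finset.sum_congr rfl fun k _ => by ring
  · intro i j hji
    have hji' : (j : ℕ) < i := hji
    have hi := i.2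
    simp only [C]
    rw [hadd (i + 1) (j + 1) (by omega) (by omega), hlow (i + 1) (j + 1) (by omega) (by omega)
      (by omega), hlow (i + 1 + 1) (j + 1) (by omega) (by omega) (by omega)]
    push_cast
    ring
  · intro i
    have hi := i.2
    simp only [C]
    rw [hadd (i + 1) (i + 1) le_rfl (by omega), hlow (i + 1 + 1) (i + 1) (by omega) (by omega)
      (by omega)]
    have h := hdiag (i + 1) (by omega) (by omega)
    have h' : (g (i + 1) (i + 1) : ℚ) < hl R A (c.M (i + 1)) (c.M (i + 1)) := by
      exact_mod_cast h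
    push_cast
    intro h0
    have h1 : (i : ℕ) + 1 + 1 = i + 2 := rfl
    rw [h1] at h0
    linarith

end Core

end Vale.Agent.P195
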