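import Mathlib

/-!
# Definitions
-/

universe u

namespace Vale.Agent.P195

open CategoryTheory

/-- `U` is a direct summand of a finite direct power of `V`, i.e. `U` belongs to `add V`. -/
def InAdd (A : Type u) [Ring A] (V U : Type u) [AddCommGroup V] [Module A V]
    [AddCommGroup U] [Module A U] : Prop :=
  ∃ (k : ℕ) (i : U →ₗ[A] (Fin k → V)) (p : (Fin k → V) →ₗ[A] U), p ∘ₗ i = LinearMap.id

/-- `IsSyzygyOf X n K` says that `K` is an `n`-th syzygy of `X`: there is an exact sequence
`0 → K → P_{n-1} → ... → P_0 → X → 0` with finitely generated projective `P_i`. -/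
def IsSyzygyOf {A : Type u} [Ring A] (X : ModuleCat.{u} A) : ℕ → ModuleCat.{u} A → Prop
  | 0, K => Nonempty (K ≃ₗ[A] X)
  | n + 1, K => ∃ (Y P : ModuleCat.{u} A) (f : K →ₗ[A] P) (g : P →ₗ[A] Y),
      IsSyzygyOf X n Y ∧ Module.Finite A P ∧ Module.Projective A P ∧
      Function.Injective f ∧ Function.Exact f g ∧ Function.Surjective g

/-- `K` has an exact sequence `0 → V₁ → V₀ → K → 0` with `V₁, V₀ ∈ add V`. -/
def ShortResolution (A : Type u) [Ring A] (V K : ModuleCat.{u} A) : Prop :=
  ∃ (V₁ V₀ : ModuleCat.{u} A) (f : V₁ →ₗ[A] V₀) (g : V₀ →ₗ[A] K),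
    InAdd A V V₁ ∧ InAdd A V V₀ ∧
      Function.Injective f ∧ Function.Exact f g ∧ Function.Surjective g

/-- `A` is an Igusa-Todorov algebra (in the sense of Wei): there are a number `n` and a finitely
generated module `V` such that every finitely generated module `X` has an `n`-th syzygy `K`
admitting an exact sequence `0 → V₁ → V₀ → K → 0` with `V₁, V₀ ∈ add V`. -/
def IsIgusaTodorov (A : Type u) [Ring A] : Prop :=
  ∃ (n : ℕ) (V : ModuleCat.{u} A), Module.Finite A V ∧
    ∀ X : ModuleCat.{u} A, Module.Finite A X →
      ∃ K : ModuleCat.{u} A, IsSyzygyOf X n K ∧ ShortResolution A V K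

/-- `B` has finite representation type: there is a finitely generated module `V` such that every
finitely generated module is a direct summand of a finite direct power of `V`. -/
def FiniteRepType (B : Type u) [Ring B] : Prop :=
  ∃ V : ModuleCat.{u} B, Module.Finite B V ∧
    ∀ X : ModuleCat.{u} B, Module.Finite B X → InAdd B V X

/-- `A` has a finitely generated generator `V` (i.e. `A ∈ add V`) such that every finitely
generated module over `(End_A V)ᵐᵒᵖ` has projective dimension at most three. This holds for every
Artin algebra of representation dimension at most three. -/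
def HasGeneratorOfDimThree (A : Type u) [Ring A] : Prop :=
  ∃ V : ModuleCat.{u} A, Module.Finite A V ∧ InAdd A V A ∧
    ∀ Y : ModuleCat.{u} (Module.End A V)ᵐᵒᵖ, Module.Finite (Module.End A V)ᵐᵒᵖ Y →
      HasProjectiveDimensionLE Y 3

end Vale.Agent.P195
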