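import Mathlib
import Vale.Agent.P195.Defs
import Vale.Agent.P195.HomLen
import Vale.Agent.P195.Simples
import Vale.Agent.P195.Core

/-!
# Lengths of Hom-groups into `add V`
-/

universe v u

namespace Vale.Agent.P195

open CategoryTheory

section

variable {A : Type u} [Ring A] {V U X : Type u} [AddCommGroup V] [Module A V]
  [AddCommGroup U] [Module A U] [AddCommGroup X] [Module A X]

theorem InAdd.finite [Module.Finite A V] (h : InAdd A V U) : Module.Finite A U := by
  obtain ⟨k, i, p, hpi⟩ := h
  refine Module.Finite.of_surjective p fun x => ⟨i x, ?_⟩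
  exact LinearMap.congr_fun hpi x

/-- The decomposition of a map `U → V` through the coordinates of `i : U → V ^ k`. -/
theorem map_eq_sum {k : ℕ} (i : U →ₗ[A] (Fin k → V)) (p : (Fin k → V) →ₗ[A] U)
    (hpi : p ∘ₗ i = LinearMap.id) (φ : U →ₗ[A] V) :
    ∑ j, ((φ ∘ₗ p ∘ₗ LinearMap.single A (fun _ => V) j : Module.End A V) •
      ((LinearMap.proj j ∘ₗ i : U →ₗ[A] V))) = φ := by
  ext x
  have hx : p (i x) = x := LinearMap.congr_fun hpi x
  conv_rhs => rw [← hx]
  have hsum : i x = ∑ j, LinearMap.single A (fun _ : Fin k => V) j (i x j) :=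
    (Finset.univ_sum_single (i x)).symm
  conv_rhs => rw [hsum, map_sum, map_sum]
  simp [LinearMap.sum_apply]

/-- For `U ∈ add V` the `End V`-module `Hom(U, V)` is projective. -/
theorem projective_hom_of_inAdd (h : InAdd A V U) :
    Module.Projective (Module.End A V) (U →ₗ[A] V) := by
  obtain ⟨k, i, p, hpi⟩ := h
  let a : (U →ₗ[A] V) →ₗ[Module.End A V] (Fin k → Module.End A V) :=
    { toFun := fun φ j => φ ∘ₗ p ∘ₗ LinearMap.single A (fun _ => V) j
      map_add' := fun φ ψ => by ext; simp
      map_smul' := fun s φ => by ext; simp }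
  let b : (Fin k → Module.End A V) →ₗ[Module.End A V] (U →ₗ[A] V) :=
    { toFun := fun s => ∑ j, s j • (LinearMap.proj j ∘ₗ i : U →ₗ[A] V)
      map_add' := fun s t => by
        rw [← Finset.sum_add_distrib]
        exact Finset.sum_congr rfl fun j _ => by rw [Pi.add_apply, add_smul]
      map_smul' := fun r s => by
        rw [RingHom.id_apply, Finset.smul_sum]
        exact Finset.sum_congr rfl fun j _ => by rw [Pi.smul_apply, smul_assoc] }
  exact Module.Projective.of_split a b (LinearMap.ext fun φ => map_eq_sum i p hpi φ)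

variable (R : Type v) [CommRing R] [Algebra R A]

/-- For `U ∈ add V` the natural map `Hom_A(X, U) → Hom_S(Hom_A(U, V), Hom_A(X, V))` with
`S = End_A(V)` is bijective. -/
theorem homLen_inAdd [Module R V] [IsScalarTower R A V] (h : InAdd A V U) :
    homLen R (Module.End A V) (U →ₗ[A] V) (X →ₗ[A] V) = homLen R A X U := by
  obtain ⟨k, i, p, hpi⟩ := h
  let _ := resModule R A U
  have := resTower R A U
  rw [homLen_eq R A X U]
  have : IsScalarTower R (Module.End A V) (X →ₗ[A] V) :=
    ⟨fun r s φ => by ext x; rfl⟩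
  rw [homLen_eq R (Module.End A V) (U →ₗ[A] V) (X →ₗ[A] V)]
  let Φ : (X →ₗ[A] U) →ₗ[R] ((U →ₗ[A] V) →ₗ[Module.End A V] (X →ₗ[A] V)) :=
    { toFun := fun f =>
        { toFun := fun φ => φ ∘ₗ f
          map_add' := fun φ ψ => by ext; simp
          map_smul' := fun s φ => by ext; simp }
      map_add' := fun f g => by ext; simp
      map_smul' := fun r f => by ext; simp }
  refine (LinearEquiv.length_eq (LinearEquiv.ofBijective Φ ⟨?_, ?_⟩)).symm
  · intro f g hfg
    have h1 : ∀ j, (LinearMap.proj j ∘ₗ i : U →ₗ[A] V) ∘ₗ f = (LinearMap.proj j ∘ₗ i) ∘ₗ g :=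
      fun j => LinearMap.congr_fun hfg (LinearMap.proj j ∘ₗ i : U →ₗ[A] V)
    ext x
    have h2 : i (f x) = i (g x) := by
      ext j
      exact LinearMap.congr_fun (h1 j) x
    have h3 := congrArg p h2
    have h4 : ∀ y, p (i y) = y := LinearMap.congr_fun hpi
    rwa [h4, h4] at h3
  · intro Θ
    refine ⟨p ∘ₗ LinearMap.pi fun j => Θ (LinearMap.proj j ∘ₗ i), ?_⟩
    ext φ x
    have h1 := map_eq_sum i p hpi φ
    have h2 : Θ φ = ∑ j, ((φ ∘ₗ p ∘ₗ LinearMap.single A (fun _ => V) j : Module.End A V) •
        Θ (LinearMap.proj j ∘ₗ i : U →ₗ[A] V)) := by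
      conv_lhs => rw [← h1]
      rw [map_sum]
      exact Finset.sum_congr rfl fun j _ => by rw [map_smul]
    rw [h2]
    have hsum : (LinearMap.pi fun j => Θ (LinearMap.proj j ∘ₗ i)) x =
        ∑ j, LinearMap.single A (fun _ : Fin k => V) j
          ((Θ (LinearMap.proj j ∘ₗ i : U →ₗ[A] V)) x) :=
      (Finset.univ_sum_single _).symm
    change φ (p ((LinearMap.pi fun j => Θ (LinearMap.proj j ∘ₗ i)) x)) = _
    rw [hsum, map_sum, map_sum]
    simp [LinearMap.sum_apply]

end

section Rank

variable (R : Type v) [CommRing R] [IsArtinianRing R] (A : Type u) [Ring A] [Algebra R A]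
  [Module.Finite R A]

/-- The lengths of `Hom(X, U)` for `U ∈ add V` factor through a fixed finite index set. -/
theorem exists_add_rank (V : ModuleCat.{u} A) [Module.Finite A V] :
    ∃ (t : ℕ) (c : ModuleCat.{u} A → Fin t → ℕ), ∀ U : ModuleCat.{u} A, InAdd A V U →
      ∃ d : Fin t → ℕ, ∀ X : ModuleCat.{u} A, Module.Finite A X →
        hl R A X U = ∑ i, d i * c X i := by
  let _ := resModule R A V
  have := resTower R A V
  have hfinV : Module.Finite R V := Module.Finite.trans A V
  have hfl : IsFiniteLength R (V →ₗ[A] V) := hom_finiteLength R A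
  rw [isFiniteLength_iff_isNoetherian_isArtinian] at hfl
  have hfinS : Module.Finite R (Module.End A V) := by
    have := hfl.1
    exact inferInstanceAs (Module.Finite R (V →ₗ[A] V))
  have hartS : IsArtinianRing (Module.End A V) := IsArtinianRing.of_finite R _
  obtain ⟨t, T, hsimple, hT⟩ := exists_simple_list (A := Module.End A V)
  -- the modules `Hom(X, V)` have finite length over `End V`
  have hflX : ∀ X : ModuleCat.{u} A, Module.Finite A X →
      Module.Finite (Module.End A V) (X →ₗ[A] V) := by
    intro X hX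
    have h1 : IsFiniteLength R (X →ₗ[A] V) := hom_finiteLength R A
    rw [isFiniteLength_iff_isNoetherian_isArtinian] at h1
    have h2 : Module.Finite R (X →ₗ[A] V) := by
      have := h1.1
      infer_instance
    have : IsScalarTower R (Module.End A V) (X →ₗ[A] V) :=
      ⟨fun r s φ => by ext x; rfl⟩
    exact Module.Finite.of_restrictScalars_finite R (Module.End A V) (X →ₗ[A] V)
  have hcomb : ∀ X : ModuleCat.{u} A, ∃ c : Fin t → ℕ, Module.Finite A X →
      ∀ (P : Type u) [AddCommGroup P] [Module (Module.End A V) P]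
        [Module.Projective (Module.End A V) P],
        homLen R (Module.End A V) P (X →ₗ[A] V) =
          ∑ i, (c i : ℕ∞) * homLen R (Module.End A V) P (T i) := by
    intro X
    by_cases hX : Module.Finite A X
    · have h3 := hflX X hX
      obtain ⟨c, hc⟩ := homLen_projective_combination R T hT (X →ₗ[A] V)
        (((IsArtinianRing.tfae (Module.End A V) (X →ₗ[A] V)).out 0 3).1 h3)
      exact ⟨c, fun _ => hc⟩
    · exact ⟨0, fun h => absurd h hX⟩
  choose c hc using hcomb
  refine ⟨t, c, ?_⟩
  intro U hU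
  have hfinU : Module.Finite A U := hU.finite
  have hfinUV : Module.Finite (Module.End A V) (U →ₗ[A] V) := hflX U hfinU
  have hproj : Module.Projective (Module.End A V) (U →ₗ[A] V) := projective_hom_of_inAdd hU
  refine ⟨fun i => hl R (Module.End A V) (U →ₗ[A] V) (T i), ?_⟩
  intro X hX
  have h4 := hc X hX (U →ₗ[A] V)
  rw [homLen_inAdd R hU, ← coe_hl R A X U] at h4
  have h5 : ∀ i, homLen R (Module.End A V) (U →ₗ[A] V) (T i) =
      (hl R (Module.End A V) (U →ₗ[A] V) (T i) : ℕ∞) := by
    intro i
    have := hsimple i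
    exact (coe_hl R _ _ _).symm
  simp only [h5] at h4
  have h6 : hl R A X U = ∑ i, c X i * hl R (Module.End A V) (U →ₗ[A] V) (T i) := by
    exact_mod_cast h4
  rw [h6]
  exact Finset.sum_congr rfl fun i _ => mul_comm _ _

end Rank

end Vale.Agent.P195
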