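import Mathlib
import Vale.Agent.P195.Core

/-!
# Dimension shifting along a chain of syzygies
-/

universe u

namespace Vale.Agent.P195

open CategoryTheory CategoryTheory.Abelian

variable {A : Type u} [Ring A]

namespace SyzygyChain

variable (c : SyzygyChain A)

/-- The short exact sequence `0 → M (m+1) → P m → M m → 0`. -/
def sc (m : ℕ) : ShortComplex (ModuleCat.{u} A) :=
  ShortComplex.mk (ModuleCat.ofHom (c.incl m)) (ModuleCat.ofHom (c.proj m))
    (ModuleCat.hom_ext (LinearMap.ext fun x => (c.exact m _).2 ⟨x, rfl⟩))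

theorem sc_shortExact (m : ℕ) : (c.sc m).ShortExact where
  exact := by
    rw [ShortComplex.ShortExact.moduleCat_exact_iff_function_exact]
    exact c.exact m
  mono_f := (ModuleCat.mono_iff_injective _).2 (c.inj m)
  epi_g := (ModuleCat.epi_iff_surjective _).2 (c.surj m)

instance (m : ℕ) : Projective (c.sc m).X₂ :=
  (IsProjective.iff_projective (R := A) (P := c.P m)).1 (c.projP m)

/-- Shifting the first variable. -/
theorem ext_shift_left (Y : ModuleCat.{u} A) (k i : ℕ) (hi : 1 ≤ i)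
    (h : Subsingleton (Ext (c.M k) Y (1 + i))) : Subsingleton (Ext (c.M (k + 1)) Y i) := by
  refine subsingleton_of_forall_eq 0 fun x => ?_
  obtain ⟨x₂, hx₂⟩ := Ext.contravariant_sequence_exact₁ (c.sc_shortExact k) Y
    (x₁ := (show Ext (c.sc k).X₁ Y i from x)) rfl (Subsingleton.elim (α := Ext (c.M k) Y (1 + i)) _ _)
  obtain ⟨j, rfl⟩ : ∃ j, i = j + 1 := ⟨i - 1, by omega⟩
  have : x₂ = 0 := Ext.eq_zero_of_projective x₂
  rw [this, Ext.comp_zero] at hx₂
  exact hx₂.symm

/-- Shifting the first variable several times. -/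
theorem ext_shift_left' (Y : ModuleCat.{u} A) (k : ℕ) : ∀ i : ℕ, 1 ≤ i →
    Subsingleton (Ext (c.M 0) Y (i + k)) → Subsingleton (Ext (c.M k) Y i) := by
  induction k with
  | zero => intro i _ h; exact h
  | succ k ih =>
    intro i hi h
    apply c.ext_shift_left Y k i hi
    apply ih (1 + i) (by omega)
    have : 1 + i + k = i + (k + 1) := by omega
    rw [this]
    exact h

/-- Shifting the second variable. -/
theorem ext_shift_right (X : ModuleCat.{u} A) (k i : ℕ)
    (h : Subsingleton (Ext X (c.M k) i)) (hP : Subsingleton (Ext X (c.P k) (i + 1))) :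
    Subsingleton (Ext X (c.M (k + 1)) (i + 1)) := by
  refine subsingleton_of_forall_eq 0 fun x => ?_
  obtain ⟨x₃, hx₃⟩ := Ext.covariant_sequence_exact₁ X (c.sc_shortExact k)
    (x₁ := (show Ext X (c.sc k).X₁ (i + 1) from x))
    (Subsingleton.elim (α := Ext X (c.P k) (i + 1)) _ _) rfl
  have : x₃ = 0 := Subsingleton.elim (α := Ext X (c.M k) i) _ _
  rw [this, Ext.zero_comp] at hx₃
  exact hx₃.symm

end SyzygyChain

/-- If `Ext^i(X, A) = 0` then `Ext^i(X, P) = 0` for every finitely generated projective `P`. -/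
theorem ext_projective_of_ext_ring (X P : ModuleCat.{u} A) (hfin : Module.Finite A P)
    (hproj : Module.Projective A P) (i : ℕ)
    (h : Subsingleton (Ext X (ModuleCat.of A A) i)) : Subsingleton (Ext X P i) := by
  refine subsingleton_of_forall_eq 0 fun x => ?_
  obtain ⟨n, f, hf⟩ := Module.Finite.exists_fin' A P
  obtain ⟨s, hs⟩ := Module.projective_lifting_property f LinearMap.id hf
  let α : Fin n → (P ⟶ ModuleCat.of A A) := fun j =>
    ModuleCat.ofHom ((LinearMap.proj j).comp s)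
  let β : Fin n → (ModuleCat.of A A ⟶ P) := fun j =>
    ModuleCat.ofHom (f.comp (LinearMap.single A (fun _ : Fin n => A) j))
  have hid : 𝟙 P = ∑ j, α j ≫ β j := by
    apply ModuleCat.hom_ext
    rw [ModuleCat.hom_sum]
    refine LinearMap.ext fun p => ?_
    have h1 := LinearMap.congr_fun hs p
    simp only [LinearMap.comp_apply, LinearMap.id_apply] at h1
    simp only [ModuleCat.hom_id, LinearMap.id_apply, LinearMap.coe_sum, Finset.sum_apply,
      ModuleCat.hom_comp, α, β, ModuleCat.hom_ofHom, LinearMap.comp_apply, LinearMap.proj_apply]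
    rw [← map_sum]
    conv_lhs => rw [← h1]
    congr 1
    ext k
    simp [Finset.sum_apply, Pi.single_apply]
  have h2 : x = x.comp (Ext.mk₀ (𝟙 P)) (add_zero i) := by simp
  rw [h2, hid, Ext.mk₀_sum, Ext.comp_sum]
  refine Finset.sum_eq_zero fun j _ => ?_
  rw [← Ext.mk₀_comp_mk₀, ← Ext.comp_assoc_of_second_deg_zero]
  have : x.comp (Ext.mk₀ (α j)) (add_zero i) = 0 := Subsingleton.elim _ _
  rw [this, Ext.zero_comp]

namespace SyzygyChain

variable (c : SyzygyChain A)

/-- Vanishing of `Ext^i(M 0, M n)`. -/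
theorem ext_zero_vanish (N : ℕ)
    (h1 : ∀ i, 1 ≤ i → i ≤ N → Subsingleton (Ext (c.M 0) (c.M 0) i))
    (h2 : ∀ i, 1 ≤ i → i ≤ N → Subsingleton (Ext (c.M 0) (ModuleCat.of A A) i)) (n : ℕ) :
    ∀ i, n + 1 ≤ i → i ≤ N → Subsingleton (Ext (c.M 0) (c.M n) i) := by
  induction n with
  | zero => intro i hi hN; exact h1 i hi hN
  | succ n ih =>
    intro i hi hN
    obtain ⟨j, rfl⟩ : ∃ j, i = j + 1 := ⟨i - 1, by omega⟩
    exact c.ext_shift_right _ n j (ih j (by omega) (by omega))
      (ext_projective_of_ext_ring _ _ (c.finP n) (c.projP n) _ (h2 _ (by omega) hN))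

theorem ext_vanish (N : ℕ)
    (h1 : ∀ i, 1 ≤ i → i ≤ N → Subsingleton (Ext (c.M 0) (c.M 0) i))
    (h2 : ∀ i, 1 ≤ i → i ≤ N → Subsingleton (Ext (c.M 0) (ModuleCat.of A A) i)) (m n : ℕ)
    (hnm : n ≤ m) (hm : m + 1 ≤ N) : Subsingleton (Ext (c.M m) (c.M n) 1) := by
  apply c.ext_shift_left' _ m 1 le_rfl
  exact c.ext_zero_vanish N h1 h2 n (1 + m) (by omega) (by omega)

theorem ext_ring_vanish (N : ℕ)
    (h2 : ∀ i, 1 ≤ i → i ≤ N → Subsingleton (Ext (c.M 0) (ModuleCat.of A A) i)) (m : ℕ)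
    (hm : m + 1 ≤ N) : Subsingleton (Ext (c.M m) (ModuleCat.of A A) 1) := by
  apply c.ext_shift_left' _ m 1 le_rfl
  exact h2 _ (by omega) (by omega)

/-- Vanishing of `Ext^1` gives the extension property. -/
theorem extend_of_ext (m : ℕ) (Y : ModuleCat.{u} A) (h : Subsingleton (Ext (c.M m) Y 1))
    (f : c.M (m + 1) →ₗ[A] Y) : ∃ g : c.P m →ₗ[A] Y, g.comp (c.incl m) = f := by
  obtain ⟨x₂, hx₂⟩ := Ext.contravariant_sequence_exact₁ (c.sc_shortExact m) Y
    (x₁ := Ext.mk₀ (show (c.sc m).X₁ ⟶ Y from ModuleCat.ofHom f)) rfl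
    (Subsingleton.elim (α := Ext (c.M m) Y 1) _ _)
  obtain ⟨g, rfl⟩ := (Ext.mk₀_bijective _ _).2 x₂
  rw [Ext.mk₀_comp_mk₀] at hx₂
  have := (Ext.mk₀_bijective _ _).1 hx₂
  refine ⟨g.hom, ?_⟩
  have h3 := congrArg ModuleCat.Hom.hom this
  exact h3

/-- Projectivity of a syzygy propagates down the chain. -/
theorem projective_of_succ (m : ℕ) (h : Subsingleton (Ext (c.M m) (ModuleCat.of A A) 1))
    (hproj : Module.Projective A (c.M (m + 1))) : Module.Projective A (c.M m) := by
  have h1 := ext_projective_of_ext_ring _ _ (c.finM (m + 1)) hproj _ h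
  obtain ⟨g, hg⟩ := c.extend_of_ext m _ h1 LinearMap.id
  obtain ⟨l, hl⟩ := ((Function.Exact.split_tfae (c.exact m) (c.inj m) (c.surj m)).out 1 0
    rfl rfl).mp ⟨g, hg⟩
  have := c.projP m
  exact Module.Projective.of_split l (c.proj m) hl

theorem not_projective (N : ℕ)
    (h2 : ∀ i, 1 ≤ i → i ≤ N → Subsingleton (Ext (c.M 0) (ModuleCat.of A A) i))
    (h0 : ¬ Module.Projective A (c.M 0)) (m : ℕ) (hm : m ≤ N) :
    ¬ Module.Projective A (c.M m) := by
  induction m with
  | zero => exact h0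
  | succ m ih =>
    intro h
    exact ih (by omega) (c.projective_of_succ m (c.ext_ring_vanish N h2 m hm) h)

theorem nontrivial_of_not_projective (m : ℕ) (h : ¬ Module.Projective A (c.M m)) :
    Nontrivial (c.M m) := by
  by_contra hcon
  rw [not_nontrivial_iff_subsingleton] at hcon
  exact h inferInstance

end SyzygyChain

end Vale.Agent.P195
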