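import Mathlib
import Vale.Agent.P195.Defs
import Vale.Agent.P195.ExtShift

/-!
# Arbitrary syzygies
-/

universe v u

namespace Vale.Agent.P195

open CategoryTheory CategoryTheory.Abelian

section

variable {A : Type u} [Ring A]

theorem IsSyzygyOf.congr_left {X X' : ModuleCat.{u} A} (e : X ≃ₗ[A] X') {n : ℕ} :
    ∀ {K : ModuleCat.{u} A}, IsSyzygyOf X n K → IsSyzygyOf X' n K := by
  induction n with
  | zero => rintro K ⟨e'⟩; exact ⟨e'.trans e⟩
  | succ n ih =>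
    rintro K ⟨Y, P, f, g, hY, h⟩
    exact ⟨Y, P, f, g, ih hY, h⟩

theorem IsSyzygyOf.trans {X Y : ModuleCat.{u} A} {a b : ℕ} (h1 : IsSyzygyOf X a Y) :
    ∀ {K : ModuleCat.{u} A}, IsSyzygyOf Y b K → IsSyzygyOf X (a + b) K := by
  induction b with
  | zero =>
    rintro K ⟨e⟩
    cases a with
    | zero =>
      obtain ⟨e'⟩ := h1
      exact ⟨e.trans e'⟩
    | succ a =>
      obtain ⟨Z, P, f, g, hZ, hP1, hP2, hf, hfg, hg⟩ := h1
      refine ⟨Z, P, f ∘ₗ e.toLinearMap, g, hZ, hP1, hP2, hf.comp e.injective, ?_, hg⟩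
      intro y
      rw [hfg y]
      constructor
      · rintro ⟨x, rfl⟩
        exact ⟨e.symm x, by simp⟩
      · rintro ⟨x, rfl⟩
        exact ⟨e x, rfl⟩
  | succ b ih =>
    rintro K ⟨Z, P, f, g, hZ, h⟩
    exact ⟨Z, P, f, g, ih hZ, h⟩

/-- The members of a chain are syzygies of its first module. -/
theorem SyzygyChain.isSyzygyOf (c : SyzygyChain A) (k : ℕ) : ∀ n,
    IsSyzygyOf (c.M k) n (c.M (k + n)) := by
  intro n
  induction n with
  | zero => exact ⟨LinearEquiv.refl A _⟩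
  | succ n ih =>
    exact ⟨c.M (k + n), c.P (k + n), c.incl (k + n), c.proj (k + n), ih, c.finP _, c.projP _,
      c.inj _, c.exact _, c.surj _⟩

/-- Covariant dimension shifting for an arbitrary short exact sequence. -/
theorem ext_shift_right_of_exact (X K P Y : ModuleCat.{u} A) (f : K →ₗ[A] P) (g : P →ₗ[A] Y)
    (hf : Function.Injective f) (hfg : Function.Exact f g) (hg : Function.Surjective g) (i : ℕ)
    (h : Subsingleton (Ext X Y i)) (hP : Subsingleton (Ext X P (i + 1))) :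
    Subsingleton (Ext X K (i + 1)) := by
  let S : ShortComplex (ModuleCat.{u} A) :=
    ShortComplex.mk (ModuleCat.ofHom f) (ModuleCat.ofHom g)
      (ModuleCat.hom_ext (LinearMap.ext fun x => (hfg _).2 ⟨x, rfl⟩))
  have hS : S.ShortExact :=
    { exact := by
        rw [ShortComplex.ShortExact.moduleCat_exact_iff_function_exact]
        exact hfg
      mono_f := (ModuleCat.mono_iff_injective _).2 hf
      epi_g := (ModuleCat.epi_iff_surjective _).2 hg }
  refine subsingleton_of_forall_eq 0 fun x => ?_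
  obtain ⟨x₃, hx₃⟩ := Ext.covariant_sequence_exact₁ X hS
    (x₁ := (show Ext X S.X₁ (i + 1) from x))
    (Subsingleton.elim (α := Ext X P (i + 1)) _ _) rfl
  have : x₃ = 0 := Subsingleton.elim (α := Ext X Y i) _ _
  rw [this, Ext.zero_comp] at hx₃
  exact hx₃.symm

/-- Isomorphism invariance of vanishing. -/
theorem ext_congr_right (X Y Y' : ModuleCat.{u} A) (e : Y' ≃ₗ[A] Y) (i : ℕ)
    (h : Subsingleton (Ext X Y i)) : Subsingleton (Ext X Y' i) := by
  refine subsingleton_of_forall_eq 0 fun x => ?_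
  have h1 : x = (x.comp (Ext.mk₀ (ModuleCat.ofHom e.toLinearMap)) (add_zero i)).comp
      (Ext.mk₀ (ModuleCat.ofHom e.symm.toLinearMap)) (add_zero i) := by
    rw [Ext.comp_assoc_of_second_deg_zero, Ext.mk₀_comp_mk₀]
    have : ModuleCat.ofHom e.toLinearMap ≫ ModuleCat.ofHom e.symm.toLinearMap = 𝟙 Y' := by
      ext x
      simp
    rw [this, Ext.comp_mk₀_id]
  have h2 : x.comp (Ext.mk₀ (ModuleCat.ofHom e.toLinearMap)) (add_zero i) = 0 :=
    Subsingleton.elim (α := Ext X Y i) _ _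
  rw [h1, h2, Ext.zero_comp]

/-- Vanishing of `Ext^i(X, K)` for an `n`-th syzygy `K` of `X`, in the range
`n + 1 ≤ i ≤ N`. -/
theorem ext_vanish_syzygy {X : ModuleCat.{u} A} (N : ℕ)
    (h1 : ∀ i, 1 ≤ i → i ≤ N → Subsingleton (Ext X X i))
    (h2 : ∀ i, 1 ≤ i → i ≤ N → Subsingleton (Ext X (ModuleCat.of A A) i)) (n : ℕ) :
    ∀ (K : ModuleCat.{u} A), IsSyzygyOf X n K →
      ∀ i, n + 1 ≤ i → i ≤ N → Subsingleton (Ext X K i) := by
  induction n with
  | zero =>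
    rintro K ⟨e⟩ i hi hN
    exact ext_congr_right X X K e i (h1 i hi hN)
  | succ n ih =>
    rintro K ⟨Y, P, f, g, hY, hP1, hP2, hf, hfg, hg⟩ i hi hN
    obtain ⟨j, rfl⟩ : ∃ j, i = j + 1 := ⟨i - 1, by omega⟩
    exact ext_shift_right_of_exact X K P Y f g hf hfg hg j
      (ih Y hY j (by omega) (by omega))
      (ext_projective_of_ext_ring _ _ hP1 hP2 _ (h2 _ (by omega) hN))

/-- One step of the comparison of projective resolutions. -/
theorem comparison_step (c : SyzygyChain A) (n : ℕ) (K P Y : ModuleCat.{u} A)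
    (f : K →ₗ[A] P) (g : P →ₗ[A] Y) (hP : Module.Projective A P)
    (hf : Function.Injective f) (hfg : Function.Exact f g) (hg : Function.Surjective g)
    (α : c.M n →ₗ[A] Y) (β : Y →ₗ[A] c.M n) (δ : c.M n →ₗ[A] c.M n) (δ' : c.P n →ₗ[A] c.P n)
    (h1 : β ∘ₗ α = LinearMap.id + δ) (h2 : c.proj n ∘ₗ δ' = δ ∘ₗ c.proj n)
    (h3 : δ' ∘ₗ c.incl n = 0) :
    ∃ (α' : c.M (n + 1) →ₗ[A] K) (β' : K →ₗ[A] c.M (n + 1)) (s : c.P n →ₗ[A] c.M (n + 1)),
      β' ∘ₗ α' = LinearMap.id + s ∘ₗ c.incl n := by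
  have hprojP := c.projP n
  -- lifts to the projective modules
  obtain ⟨a, ha⟩ := Module.projective_lifting_property g (α ∘ₗ c.proj n) hg
  obtain ⟨b, hb⟩ := Module.projective_lifting_property (c.proj n) (β ∘ₗ g) (c.surj n)
  -- restrictions to the syzygies
  have hfact : ∀ {Z : ModuleCat.{u} A} (φ : Z →ₗ[A] P), g ∘ₗ φ = 0 →
      ∃ ψ : Z →ₗ[A] K, f ∘ₗ ψ = φ := by
    intro Z φ hφ
    have hr : ∀ z, φ z ∈ LinearMap.range f := fun z => (hfg _).1 (LinearMap.congr_fun hφ z)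
    refine ⟨(LinearEquiv.ofInjective f hf).symm.toLinearMap ∘ₗ φ.codRestrict _ hr, ?_⟩
    ext z
    have := LinearEquiv.apply_symm_apply (LinearEquiv.ofInjective f hf)
      (φ.codRestrict _ hr z)
    exact congrArg Subtype.val this
  have hfact' : ∀ {Z : ModuleCat.{u} A} (φ : Z →ₗ[A] c.P n), c.proj n ∘ₗ φ = 0 →
      ∃ ψ : Z →ₗ[A] c.M (n + 1), c.incl n ∘ₗ ψ = φ := by
    intro Z φ hφ
    have hr : ∀ z, φ z ∈ LinearMap.range (c.incl n) :=
      fun z => (c.exact n _).1 (LinearMap.congr_fun hφ z)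
    refine ⟨(LinearEquiv.ofInjective (c.incl n) (c.inj n)).symm.toLinearMap ∘ₗ
      φ.codRestrict _ hr, ?_⟩
    ext z
    have := LinearEquiv.apply_symm_apply (LinearEquiv.ofInjective (c.incl n) (c.inj n))
      (φ.codRestrict _ hr z)
    exact congrArg Subtype.val this
  have hzero : c.proj n ∘ₗ c.incl n = 0 :=
    LinearMap.ext fun x => (c.exact n _).2 ⟨x, rfl⟩
  have hzero' : g ∘ₗ f = 0 := LinearMap.ext fun x => (hfg _).2 ⟨x, rfl⟩
  obtain ⟨α', hα'⟩ := hfact (a ∘ₗ c.incl n) (by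
    rw [← LinearMap.comp_assoc, ha, LinearMap.comp_assoc, hzero, LinearMap.comp_zero])
  obtain ⟨β', hβ'⟩ := hfact' (b ∘ₗ f) (by
    rw [← LinearMap.comp_assoc, hb, LinearMap.comp_assoc, hzero', LinearMap.comp_zero])
  obtain ⟨s, hs⟩ := hfact' (b ∘ₗ a - LinearMap.id - δ') (by
    rw [LinearMap.comp_sub, LinearMap.comp_sub, ← LinearMap.comp_assoc, hb,
      LinearMap.comp_assoc, ha, ← LinearMap.comp_assoc, h1, h2, LinearMap.add_comp,
      LinearMap.id_comp, LinearMap.comp_id]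
    abel)
  refine ⟨α', β', s, ?_⟩
  have hinj : ∀ φ ψ : c.M (n + 1) →ₗ[A] c.M (n + 1),
      c.incl n ∘ₗ φ = c.incl n ∘ₗ ψ → φ = ψ := by
    intro φ ψ h
    ext x
    exact c.inj n (LinearMap.congr_fun h x)
  apply hinj
  rw [← LinearMap.comp_assoc, hβ', LinearMap.comp_assoc, hα', LinearMap.comp_add,
    LinearMap.comp_id, ← LinearMap.comp_assoc (c.incl n) s (c.incl n), hs, LinearMap.sub_comp,
    LinearMap.sub_comp, h3, LinearMap.id_comp, LinearMap.comp_assoc]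
  abel

/-- Comparison maps between the chain and an arbitrary syzygy. -/
theorem exists_comparison_weak (c : SyzygyChain A) (n : ℕ) : ∀ (K : ModuleCat.{u} A),
    IsSyzygyOf (c.M 0) n K → ∃ (α : c.M n →ₗ[A] K) (β : K →ₗ[A] c.M n)
      (δ : c.M n →ₗ[A] c.M n) (δ' : c.P n →ₗ[A] c.P n),
      β ∘ₗ α = LinearMap.id + δ ∧ c.proj n ∘ₗ δ' = δ ∘ₗ c.proj n ∧ δ' ∘ₗ c.incl n = 0 := by
  induction n with
  | zero =>
    rintro K ⟨e⟩
    refine ⟨e.symm.toLinearMap, e.toLinearMap, 0, 0, ?_, by simp, by simp⟩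
    ext x
    simp
  | succ n ih =>
    rintro K ⟨Y, P, f, g, hY, hP1, hP2, hf, hfg, hg⟩
    obtain ⟨α, β, δ, δ', h1, h2, h3⟩ := ih Y hY
    obtain ⟨α', β', s, hs⟩ := comparison_step c n K P Y f g hP2 hf hfg hg α β δ δ' h1 h2 h3
    have := c.projP n
    obtain ⟨l, hl⟩ := Module.projective_lifting_property (c.proj (n + 1)) s (c.surj (n + 1))
    refine ⟨α', β', s ∘ₗ c.incl n, l ∘ₗ c.incl n ∘ₗ c.proj (n + 1), hs, ?_, ?_⟩
    · rw [← LinearMap.comp_assoc, hl, LinearMap.comp_assoc]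
    · have hzero : c.proj (n + 1) ∘ₗ c.incl (n + 1) = 0 :=
        LinearMap.ext fun x => (c.exact (n + 1) _).2 ⟨x, rfl⟩
      rw [LinearMap.comp_assoc, LinearMap.comp_assoc, hzero, LinearMap.comp_zero,
        LinearMap.comp_zero]

theorem exists_comparison (c : SyzygyChain A) (n : ℕ) (K : ModuleCat.{u} A)
    (hK : IsSyzygyOf (c.M 0) (n + 1) K) :
    ∃ (α : c.M (n + 1) →ₗ[A] K) (β : K →ₗ[A] c.M (n + 1)) (s : c.P n →ₗ[A] c.M (n + 1)),
      β ∘ₗ α = LinearMap.id + s ∘ₗ c.incl n := by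
  obtain ⟨Y, P, f, g, hY, hP1, hP2, hf, hfg, hg⟩ := hK
  obtain ⟨α, β, δ, δ', h1, h2, h3⟩ := exists_comparison_weak c n Y hY
  exact comparison_step c n K P Y f g hP2 hf hfg hg α β δ δ' h1 h2 h3

end

end Vale.Agent.P195
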