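import Mathlib
import Vale.Agent.P195.AddRank
import Vale.Agent.P195.Syzygy

/-!
# The rank argument for short `add V`-resolutions
-/

universe v u

namespace Vale.Agent.P195

open CategoryTheory CategoryTheory.Abelian

section Strict

variable (R : Type v) [CommRing R] (A : Type u) [Ring A] [Algebra R A]
  [IsArtinianRing R] [Module.Finite R A]
variable {M N N' N'' : Type u} [AddCommGroup M] [Module A M] [AddCommGroup N] [Module A N]
  [AddCommGroup N'] [Module A N'] [AddCommGroup N''] [Module A N'']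

/-- Strict subadditivity if some map does not lift. -/
theorem homLen_lt_add_right [Module.Finite A M] [Module.Finite A N'] [Module.Finite A N'']
    (i : N' →ₗ[A] N) (p : N →ₗ[A] N'')
    (hi : Function.Injective i) (hexact : Function.Exact i p)
    (φ : M →ₗ[A] N'') (hφ : ∀ g : M →ₗ[A] N, p.comp g ≠ φ) :
    homLen R A M N < homLen R A M N' + homLen R A M N'' := by
  let _ := resModule R A N
  have := resTower R A N
  let _ := resModule R A N'
  have := resTower R A N'
  let _ := resModule R A N''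
  have := resTower R A N''
  have hfl : IsFiniteLength R (M →ₗ[A] N'') := hom_finiteLength R A
  rw [isFiniteLength_iff_isNoetherian_isArtinian] at hfl
  obtain ⟨h1, h2⟩ := hfl
  rw [homLen_eq R A M N, homLen_eq R A M N'']
  let W : Submodule R (M →ₗ[A] N'') := LinearMap.range (sandwich R (LinearMap.id : M →ₗ[A] M) p)
  have hW : W ≠ ⊤ := by
    intro h
    obtain ⟨g, hg⟩ := LinearMap.range_eq_top.1 h φ
    exact hφ g hg
  have hlt := Submodule.length_lt hW
  have hadd : Module.length R (M →ₗ[A] N) = Module.length R (M →ₗ[A] N') + Module.length R W := by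
    refine Module.length_eq_add_of_exact (sandwich R (LinearMap.id : M →ₗ[A] M) i)
      (LinearMap.rangeRestrict (sandwich R (LinearMap.id : M →ₗ[A] M) p)) ?_ ?_ ?_
    · exact sandwich_injective _ _ Function.surjective_id hi
    · exact LinearMap.surjective_rangeRestrict _
    · intro f
      constructor
      · intro hf
        have hf' : p ∘ₗ f = 0 := congrArg Subtype.val hf
        have hrange : ∀ x, f x ∈ LinearMap.range i :=
          fun x => (hexact (f x)).1 (LinearMap.congr_fun hf' x)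
        refine ⟨(LinearEquiv.ofInjective i hi).symm.toLinearMap ∘ₗ f.codRestrict _ hrange, ?_⟩
        ext x
        have := LinearEquiv.apply_symm_apply (LinearEquiv.ofInjective i hi)
          (f.codRestrict _ hrange x)
        exact congrArg Subtype.val this
      · rintro ⟨g, rfl⟩
        apply Subtype.ext
        ext x
        exact (hexact _).2 ⟨g x, rfl⟩
  rw [hadd, ← homLen_eq R A M N']
  exact (ENat.add_lt_add_iff_left (homLen_ne_top R A)).2 hlt

end Strict

section Good

variable {A : Type u} [Ring A]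

/-- An index `n` is good if there is a short `add V`-resolution `0 → V₁ → V₀ → K → 0` such that
all maps `M (m+1) → K`, `n ≤ m ≤ L`, extend to `P m`, and some map `M n → K` does not lift
to `V₀`. -/
def Good (c : SyzygyChain A) (V : ModuleCat.{u} A) (L n : ℕ) : Prop :=
  ∃ (K V₁ V₀ : ModuleCat.{u} A) (f : V₁ →ₗ[A] V₀) (g : V₀ →ₗ[A] K),
    Module.Finite A K ∧ InAdd A V V₁ ∧ InAdd A V V₀ ∧
    Function.Injective f ∧ Function.Exact f g ∧ Function.Surjective g ∧
    (∀ m, n ≤ m → m ≤ L → ∀ φ : c.M (m + 1) →ₗ[A] K, ∃ ψ : c.P m →ₗ[A] K,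
      ψ ∘ₗ c.incl m = φ) ∧
    ∃ φ : c.M n →ₗ[A] K, ∀ ψ : c.M n →ₗ[A] V₀, g ∘ₗ ψ ≠ φ

variable (R : Type v) [CommRing R] [Algebra R A] [IsArtinianRing R] [Module.Finite R A]

theorem good_contradiction (V : ModuleCat.{u} A) [Module.Finite A V] (t : ℕ)
    (γ : ModuleCat.{u} A → Fin t → ℕ)
    (hγ : ∀ U : ModuleCat.{u} A, InAdd A V U → ∃ d : Fin t → ℕ, ∀ X : ModuleCat.{u} A,
      Module.Finite A X → hl R A X U = ∑ i, d i * γ X i)
    (c : SyzygyChain A) (L : ℕ) (ν : Fin (t + 1) → ℕ) (hν : StrictMono ν)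
    (hL : ∀ k, ν k ≤ L) (hgood : ∀ k, Good c V L (ν k)) : False := by
  classical
  have hfinM := c.finM
  have hfinP := c.finP
  have hprojP := c.projP
  choose K V₁ V₀ f g hK hV₁ hV₀ hf hfg hg hext hstrict using hgood
  choose d₁ hd₁ using fun k => hγ (V₁ k) (hV₁ k)
  choose d₀ hd₀ using fun k => hγ (V₀ k) (hV₀ k)
  have hfin₁ : ∀ k, Module.Finite A (V₁ k) := fun k => (hV₁ k).finite
  have hfin₀ : ∀ k, Module.Finite A (V₀ k) := fun k => (hV₀ k).finite
  -- the lengths
  have F1 : ∀ m b, hl R A (c.P m) (V₀ b) = hl R A (c.P m) (V₁ b) + hl R A (c.P m) (K b) := by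
    intro m b
    have h := homLen_add_right R A (M := c.P m) (f b) (g b) (hf b) (hfg b)
      (fun φ => Module.projective_lifting_property (g b) φ (hg b))
    rw [← coe_hl R A (c.P m) (V₀ b), ← coe_hl R A (c.P m) (V₁ b),
      ← coe_hl R A (c.P m) (K b)] at h
    exact_mod_cast h
  have F2 : ∀ m b, ν b ≤ m → m ≤ L → hl R A (c.M (m + 1)) (V₀ b) =
      hl R A (c.M (m + 1)) (V₁ b) + hl R A (c.M (m + 1)) (K b) := by
    intro m b hm hm'
    have h := homLen_add_right R A (M := c.M (m + 1)) (f b) (g b) (hf b) (hfg b)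
      (fun φ => by
        obtain ⟨ψ, hψ⟩ := hext b m hm hm' φ
        obtain ⟨χ, hχ⟩ := Module.projective_lifting_property (g b) ψ (hg b)
        exact ⟨χ ∘ₗ c.incl m, by rw [← LinearMap.comp_assoc, hχ, hψ]⟩)
    rw [← coe_hl R A (c.M (m + 1)) (V₀ b), ← coe_hl R A (c.M (m + 1)) (V₁ b),
      ← coe_hl R A (c.M (m + 1)) (K b)] at h
    exact_mod_cast h
  have F3 : ∀ m b, ν b ≤ m → m ≤ L → hl R A (c.P m) (K b) =
      hl R A (c.M m) (K b) + hl R A (c.M (m + 1)) (K b) := by
    intro m b hm hm'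
    have h := homLen_add_left R A (N := K b) (c.incl m) (c.proj m) (c.surj m) (c.exact m)
      (hext b m hm hm')
    rw [← coe_hl R A (c.P m) (K b), ← coe_hl R A (c.M m) (K b),
      ← coe_hl R A (c.M (m + 1)) (K b)] at h
    exact_mod_cast h
  have F4 : ∀ b, hl R A (c.M (ν b)) (V₀ b) <
      hl R A (c.M (ν b)) (V₁ b) + hl R A (c.M (ν b)) (K b) := by
    intro b
    obtain ⟨φ, hφ⟩ := hstrict b
    have h := homLen_lt_add_right R A (f b) (g b) (hf b) (hfg b) φ hφ
    rw [← coe_hl R A (c.M (ν b)) (V₀ b), ← coe_hl R A (c.M (ν b)) (V₁ b),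
      ← coe_hl R A (c.M (ν b)) (K b)] at h
    exact_mod_cast h
  let u : Fin t → Fin (t + 1) → ℚ := fun j a =>
    (γ (c.P (ν a)) j : ℚ) - γ (c.M (ν a)) j - γ (c.M (ν a + 1)) j
  let w : Fin t → Fin (t + 1) → ℚ := fun j b => (d₀ b j : ℚ) - d₁ b j
  have hC : ∀ a b, ∑ j, u j a * w j b =
      ((hl R A (c.P (ν a)) (V₀ b) : ℚ) - hl R A (c.P (ν a)) (V₁ b)) -
      ((hl R A (c.M (ν a)) (V₀ b) : ℚ) - hl R A (c.M (ν a)) (V₁ b)) -
      ((hl R A (c.M (ν a + 1)) (V₀ b) : ℚ) - hl R A (c.M (ν a + 1)) (V₁ b)) := by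
    intro a b
    rw [hd₀ b (c.P (ν a)) (hfinP _), hd₀ b (c.M (ν a)) (hfinM _),
      hd₀ b (c.M (ν a + 1)) (hfinM _), hd₁ b (c.P (ν a)) (hfinP _), hd₁ b (c.M (ν a)) (hfinM _),
      hd₁ b (c.M (ν a + 1)) (hfinM _)]
    push_cast
    rw [← Finset.sum_sub_distrib, ← Finset.sum_sub_distrib, ← Finset.sum_sub_distrib,
      ← Finset.sum_sub_distrib, ← Finset.sum_sub_distrib]
    refine Finset.sum_congr rfl fun j _ => ?_
    simp only [u, w]
    ring
  refine no_small_factorization (κ := Fin t) (K := t + 1) (by simp)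
    (fun a b => ∑ j, u j a * w j b) u w (fun _ _ => rfl) ?_ ?_
  · intro a b hba
    have hlt : ν b < ν a := hν hba
    obtain ⟨m, hm⟩ : ∃ m, ν a = m + 1 := ⟨ν a - 1, by omega⟩
    have hma := hL a
    rw [hC a b]
    have e1 := F1 (ν a) b
    have e2 := F2 m b (by omega) (by omega)
    have e3 := F2 (ν a) b hlt.le hma
    have e4 := F3 (ν a) b hlt.le hma
    rw [hm] at e1 e3 e4 ⊢
    rw [e1, e2, e3, e4]
    push_cast
    ring
  · intro a
    rw [hC a a]
    have e1 := F1 (ν a) a
    have e3 := F2 (ν a) a le_rfl (hL a)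
    have e4 := F3 (ν a) a le_rfl (hL a)
    have e5 := F4 a
    rw [e1, e3, e4]
    have e6 : (hl R A (c.M (ν a)) (V₀ a) : ℚ) <
        hl R A (c.M (ν a)) (V₁ a) + hl R A (c.M (ν a)) (K a) := by exact_mod_cast e5
    push_cast
    intro h0
    linarith

end Good

end Vale.Agent.P195
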