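import Mathlib
import Vale.Agent.P195.Engine2

/-!
# The criterion
-/

universe v u

namespace Vale.Agent.P195

open CategoryTheory CategoryTheory.Abelian

section

variable {A : Type u} [Ring A]

theorem InAdd.prod_right {V W U : ModuleCat.{u} A} (h : InAdd A V U) :
    InAdd A (ModuleCat.of A (V × W)) U := by
  obtain ⟨k, i, p, hpi⟩ := h
  refine ⟨k, LinearMap.pi fun j => LinearMap.inl A V W ∘ₗ LinearMap.proj j ∘ₗ i,
    p ∘ₗ LinearMap.pi fun j => LinearMap.fst A V W ∘ₗ LinearMap.proj j, ?_⟩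
  ext x
  exact LinearMap.congr_fun hpi x

theorem InAdd.prod_left {V W U : ModuleCat.{u} A} (h : InAdd A W U) :
    InAdd A (ModuleCat.of A (V × W)) U := by
  obtain ⟨k, i, p, hpi⟩ := h
  refine ⟨k, LinearMap.pi fun j => LinearMap.inr A V W ∘ₗ LinearMap.proj j ∘ₗ i,
    p ∘ₗ LinearMap.pi fun j => LinearMap.snd A V W ∘ₗ LinearMap.proj j, ?_⟩
  ext x
  exact LinearMap.congr_fun hpi x

theorem inAdd_self_of_projective {P : ModuleCat.{u} A} (hfin : Module.Finite A P)
    (hproj : Module.Projective A P) : InAdd A (ModuleCat.of A A) P := by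
  obtain ⟨n, f, hf⟩ := Module.Finite.exists_fin' A P
  obtain ⟨s, hs⟩ := Module.projective_lifting_property f LinearMap.id hf
  exact ⟨n, s, f, hs⟩

theorem InAdd.summand {V U W : ModuleCat.{u} A} (h : InAdd A V U) (a : W →ₗ[A] U)
    (b : U →ₗ[A] W) (hba : b ∘ₗ a = LinearMap.id) : InAdd A V W := by
  obtain ⟨k, i, p, hpi⟩ := h
  refine ⟨k, i ∘ₗ a, b ∘ₗ p, ?_⟩
  rw [LinearMap.comp_assoc, ← LinearMap.comp_assoc a i p, hpi, LinearMap.id_comp, hba]

/-- Nakayama: an endomorphism that is the identity modulo the radical is bijective. -/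
theorem bijective_of_id_add (M : ModuleCat.{u} A) [IsNoetherian A M] (θ δ : M →ₗ[A] M)
    (hθ : θ = LinearMap.id + δ)
    (hδ : ∀ x, δ x ∈ Ring.jacobson A • (⊤ : Submodule A M)) : Function.Bijective θ := by
  have hsurj : Function.Surjective θ := by
    rw [← LinearMap.range_eq_top, ← Submodule.Quotient.subsingleton_iff]
    by_contra hcon
    rw [not_subsingleton_iff_nontrivial] at hcon
    have hlt := Submodule.jacobson_smul_lt_top (R := A) (M := M ⧸ LinearMap.range θ) ⊤
    apply hlt.ne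
    rw [Submodule.eq_top_iff']
    intro y
    obtain ⟨x, rfl⟩ := Submodule.mkQ_surjective _ y
    have h1 : x = θ x - δ x := by rw [hθ]; simp
    have h2 : (LinearMap.range θ).mkQ x = -(LinearMap.range θ).mkQ (δ x) := by
      conv_lhs => rw [h1]
      rw [map_sub]
      have : (LinearMap.range θ).mkQ (θ x) = 0 := by
        rw [Submodule.mkQ_apply, Submodule.Quotient.mk_eq_zero]
        exact ⟨x, rfl⟩
      rw [this, zero_sub]
    rw [h2]
    apply Submodule.neg_mem
    have h3 : (LinearMap.range θ).mkQ (δ x) ∈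
        (Ring.jacobson A • (⊤ : Submodule A M)).map (LinearMap.range θ).mkQ := ⟨_, hδ x, rfl⟩
    rw [Submodule.map_smul''] at h3
    have h4 : Ring.jacobson A • (⊤ : Submodule A M).map (LinearMap.range θ).mkQ ≤
        Ring.jacobson A • (⊤ : Submodule A (M ⧸ LinearMap.range θ)) := smul_mono_right _ le_top
    exact h4 h3
  exact ⟨IsNoetherian.injective_of_surjective_endomorphism θ hsurj, hsurj⟩

/-- Either `n` or `n - 1` is good. -/
theorem good_or_good [IsArtinianRing A] (c : SyzygyChain A) (V : ModuleCat.{u} A)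
    [Module.Finite A V] (L k : ℕ) (hkL : k + 1 ≤ L)
    (h1 : ∀ i, 1 ≤ i → i ≤ L + 1 → Subsingleton (Ext (c.M 0) (c.M 0) i))
    (h2 : ∀ i, 1 ≤ i → i ≤ L + 1 → Subsingleton (Ext (c.M 0) (ModuleCat.of A A) i))
    (hnp : ¬ Module.Projective A (c.M 0)) (K : ModuleCat.{u} A)
    (hK : IsSyzygyOf (c.M 0) (k + 1) K) (hres : ShortResolution A V K) :
    Good c (ModuleCat.of A (V × ModuleCat.of A A)) L (k + 1) ∨
      Good c (ModuleCat.of A (V × ModuleCat.of A A)) L k := by
  obtain ⟨V₁, V₀, f, g, hV₁, hV₀, hf, hfg, hg⟩ := hres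
  obtain ⟨α, β, s, hs⟩ := exists_comparison c k K hK
  have hfinK : Module.Finite A K := by
    have := hV₀.finite
    exact Module.Finite.of_surjective g hg
  by_cases hlift : ∀ ψ : c.M (k + 1) →ₗ[A] V₀, g ∘ₗ ψ ≠ α
  · left
    refine ⟨K, V₁, V₀, f, g, hfinK, hV₁.prod_right, hV₀.prod_right, hf, hfg, hg, ?_, α, hlift⟩
    intro m hm hm' φ
    apply c.extend_of_ext m K
    apply c.ext_shift_left' _ m 1 le_rfl
    exact ext_vanish_syzygy (L + 1) h1 h2 (k + 1) K hK (1 + m) (by omega) (by omega)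
  · right
    push Not at hlift
    obtain ⟨ψ, hψ⟩ := hlift
    have hfinM := c.finM
    -- `M (k+1)` is a direct summand of `V₀`
    have hbij := bijective_of_id_add (c.M (k + 1)) (LinearMap.id + s ∘ₗ c.incl k)
      (s ∘ₗ c.incl k) rfl (by
        intro x
        have h3 : c.incl k x ∈ Ring.jacobson A • (⊤ : Submodule A (c.P k)) :=
          c.minimal k ⟨x, rfl⟩
        have h4 : s (c.incl k x) ∈
            (Ring.jacobson A • (⊤ : Submodule A (c.P k))).map s := ⟨_, h3, rfl⟩
        rw [Submodule.map_smul''] at h4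
        have h5 : Ring.jacobson A • (⊤ : Submodule A (c.P k)).map s ≤
            Ring.jacobson A • (⊤ : Submodule A (c.M (k + 1))) := smul_mono_right _ le_top
        exact h5 h4)
    let e := LinearEquiv.ofBijective _ hbij
    have hsummand : InAdd A V (c.M (k + 1)) := by
      refine hV₀.summand ψ (e.symm.toLinearMap ∘ₗ β ∘ₗ g) ?_
      rw [LinearMap.comp_assoc, LinearMap.comp_assoc, hψ, hs]
      ext x
      exact e.symm_apply_apply x
    refine ⟨c.M k, c.M (k + 1), c.P k, c.incl k, c.proj k, c.finM k, hsummand.prod_right,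
      (inAdd_self_of_projective (c.finP k) (c.projP k)).prod_left, c.inj k, c.exact k, c.surj k,
      ?_, LinearMap.id, ?_⟩
    · intro m hm hm' φ
      exact c.extend_of_ext m _ (c.ext_vanish (L + 1) h1 h2 m k hm (by omega)) φ
    · intro χ hχ
      apply c.not_projective (L + 1) h2 hnp k (by omega)
      have := c.projP k
      exact Module.Projective.of_split χ (c.proj k) hχ

end

section Main

variable (R : Type v) [CommRing R] [IsArtinianRing R] (A : Type u) [Ring A] [Algebra R A]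
  [Module.Finite R A]

include R in
/-- The criterion along a chain. -/
theorem main_criterion (V : ModuleCat.{u} A) [Module.Finite A V] :
    ∃ t : ℕ, ∀ (c : SyzygyChain A) (L : ℕ) (ν : Fin (t + 1) → ℕ),
      (∀ k l, k < l → ν k + 2 ≤ ν l) → (∀ k, 1 ≤ ν k) → (∀ k, ν k ≤ L) →
      (∀ i, 1 ≤ i → i ≤ L + 1 → Subsingleton (Ext (c.M 0) (c.M 0) i)) →
      (∀ i, 1 ≤ i → i ≤ L + 1 → Subsingleton (Ext (c.M 0) (ModuleCat.of A A) i)) →
      (∀ k, ∃ K : ModuleCat.{u} A, IsSyzygyOf (c.M 0) (ν k) K ∧ ShortResolution A V K) →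
      Module.Projective A (c.M 0) := by
  have hart : IsArtinianRing A := IsArtinianRing.of_finite R A
  obtain ⟨t, γ, hγ⟩ := exists_add_rank R A (ModuleCat.of A (V × ModuleCat.of A A))
  refine ⟨t, ?_⟩
  intro c L ν hgap hν1 hνL h1 h2 hdata
  by_contra hnp
  have hchoice : ∀ k, ∃ n, Good c (ModuleCat.of A (V × ModuleCat.of A A)) L n ∧
      n ≤ ν k ∧ ν k ≤ n + 1 := by
    intro k
    obtain ⟨K, hK, hres⟩ := hdata k
    obtain ⟨j, hj⟩ : ∃ j, ν k = j + 1 := ⟨ν k - 1, by have := hν1 k; omega⟩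
    rw [hj] at hK
    have hjL : j + 1 ≤ L := hj ▸ hνL k
    rcases good_or_good c V L j hjL h1 h2 hnp K hK hres with h | h
    · exact ⟨j + 1, h, by omega, by omega⟩
    · exact ⟨j, h, by omega, by omega⟩
  choose μ hμ hμ1 hμ2 using hchoice
  refine good_contradiction R (ModuleCat.of A (V × ModuleCat.of A A)) t γ hγ c L μ ?_ ?_ hμ
  · intro k l hkl
    have := hgap k l hkl
    have h3 := hμ1 k
    have h4 := hμ2 l
    omega
  · intro k
    exact (hμ1 k).trans (hνL k)

end Main

end Vale.Agent.P195
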