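import Mathlib
import Vale.Agent.P195.Core
import Vale.Agent.P195.ExtShift

/-!
# The engine: from vanishing of Ext to a contradiction
-/

universe v u

namespace Vale.Agent.P195

open CategoryTheory CategoryTheory.Abelian

section Engine

variable (R : Type v) [CommRing R] (A : Type u) [Ring A] [Algebra R A]
variable [IsArtinianRing R] [Module.Finite R A]

theorem chain_contradiction {r : ℕ} (S : Fin r → ModuleCat.{u} A)
    (hsimple : ∀ i, IsSimpleModule A (S i))
    (hS : ∀ (T : Type u) [AddCommGroup T] [Module A T] [IsSimpleModule A T],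
        ∃ i, Nonempty (T ≃ₗ[A] S i))
    (c : SyzygyChain A) {t : ℕ}
    (hne : ∀ n, 1 ≤ n → n ≤ r + t + 1 → Nontrivial (c.M n))
    (hext : ∀ m n, n ≤ m → m ≤ r + t + 1 → ∀ f : c.M (m + 1) →ₗ[A] c.M n,
      ∃ g : c.P m →ₗ[A] c.M n, g.comp (c.incl m) = f)
    (D : ∀ m, Submodule A (c.M m))
    (hD : ∀ m n, 1 ≤ n → n < m → m ≤ r + t + 2 → ∀ f : c.M m →ₗ[A] c.M n,
      D m ≤ LinearMap.ker f)
    (x y : Fin t → ℕ → ℕ)
    (hg : ∀ m n, 1 ≤ m → 1 ≤ n → m ≤ r + t + 2 → n ≤ r + t + 1 →
      hl R A (c.M m ⧸ D m) ↥(Ring.jacobson A • (⊤ : Submodule A (c.M n))) =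
        ∑ i, x i m * y i n) : False := by
  have hfinM := c.finM
  have hart : IsArtinianRing A := IsArtinianRing.of_finite R A
  refine core_contradiction R A S hsimple hS c hext
    (fun m n => hl R A (c.M m ⧸ D m) ↥(Ring.jacobson A • (⊤ : Submodule A (c.M n)))) x y hg ?_ ?_
  · intro m n hn hnm hm
    obtain ⟨k, rfl⟩ : ∃ k, m = k + 1 := ⟨m - 1, by omega⟩
    unfold hl
    rw [homLen_eq_of_factor R A (D (k + 1)).mkQ
      (Ring.jacobson A • (⊤ : Submodule A (c.M n))).subtype (Submodule.mkQ_surjective _)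
      (Submodule.injective_subtype _)]
    intro f
    obtain ⟨g, rfl⟩ := hext k n (by omega) (by omega) f
    have hker := hD (k + 1) n hn hnm hm (g.comp (c.incl k))
    have hrange : ∀ z, ((D (k + 1)).liftQ (g.comp (c.incl k)) hker) z ∈
        Ring.jacobson A • (⊤ : Submodule A (c.M n)) := by
      intro z
      obtain ⟨z, rfl⟩ := Submodule.mkQ_surjective _ z
      have h1 : c.incl k z ∈ Ring.jacobson A • (⊤ : Submodule A (c.P k)) :=
        c.minimal k ⟨z, rfl⟩
      have h2 : g (c.incl k z) ∈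
          (Ring.jacobson A • (⊤ : Submodule A (c.P k))).map g := ⟨_, h1, rfl⟩
      rw [Submodule.map_smul''] at h2
      have h3 : Ring.jacobson A • (⊤ : Submodule A (c.P k)).map g ≤
          Ring.jacobson A • (⊤ : Submodule A (c.M n)) := smul_mono_right _ le_top
      exact h3 h2
    refine ⟨((D (k + 1)).liftQ (g.comp (c.incl k)) hker).codRestrict _ hrange, ?_⟩
    ext z
    rfl
  · intro n hn hn'
    have hnt := hne n hn hn'
    have hlt := homLen_lt R A (M := c.M n) (N := c.M n) (D n).mkQ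
      (Ring.jacobson A • (⊤ : Submodule A (c.M n))).subtype (Submodule.mkQ_surjective _)
      (Submodule.injective_subtype _) LinearMap.id (by
        intro g hg'
        have hlt := Submodule.jacobson_smul_lt_top (R := A) (M := c.M n) ⊤
        apply hlt.ne
        rw [Submodule.eq_top_iff']
        intro z
        have := LinearMap.congr_fun hg' z
        rw [LinearMap.id_apply] at this
        rw [← this]
        exact (g ((D n).mkQ z)).2)
    rw [← coe_hl R A (c.M n) (c.M n),
      ← coe_hl R A (c.M n ⧸ D n) ↥(Ring.jacobson A • (⊤ : Submodule A (c.M n)))] at hlt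
    exact_mod_cast hlt

/-- The engine in terms of `Ext`: a uniform bound follows once the numbers
`length Hom(M_m / D_m, rad M_n)` factor through `t` indices. -/
theorem engine (t : ℕ)
    (hfac : ∀ (c : SyzygyChain A), ∀ L : ℕ,
      (∀ m n, n ≤ m → m ≤ L → ∀ f : c.M (m + 1) →ₗ[A] c.M n,
        ∃ g : c.P m →ₗ[A] c.M n, g.comp (c.incl m) = f) →
      ∃ (D : ∀ m, Submodule A (c.M m)) (x y : Fin t → ℕ → ℕ),
        (∀ m n, 1 ≤ n → n < m → m ≤ L + 1 → ∀ f : c.M m →ₗ[A] c.M n, D m ≤ LinearMap.ker f) ∧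
        (∀ m n, 1 ≤ m → 1 ≤ n →
          hl R A (c.M m ⧸ D m) ↥(Ring.jacobson A • (⊤ : Submodule A (c.M n))) =
            ∑ i, x i m * y i n)) :
    ∃ N : ℕ, ∀ (M : Type u) [AddCommGroup M] [Module A M] [Module.Finite A M],
      (∀ i : ℕ, 1 ≤ i → i ≤ N → Subsingleton (Ext (ModuleCat.of A M) (ModuleCat.of A M) i)) →
      (∀ i : ℕ, 1 ≤ i → i ≤ N → Subsingleton (Ext (ModuleCat.of A M) (ModuleCat.of A A) i)) →
      Module.Projective A M := by
  have hart : IsArtinianRing A := IsArtinianRing.of_finite R A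
  obtain ⟨r, S, hsimple, hS⟩ := exists_simple_list (A := A)
  refine ⟨r + t + 2, ?_⟩
  intro M _ _ hM h1 h2
  obtain ⟨c, hc⟩ := exists_chain (ModuleCat.of A M) hM
  rw [← hc] at h1 h2
  by_contra hnp
  have hnp' : ¬ Module.Projective A (c.M 0) := by
    rw [hc]
    exact hnp
  have hext : ∀ m n, n ≤ m → m ≤ r + t + 1 → ∀ f : c.M (m + 1) →ₗ[A] c.M n,
      ∃ g : c.P m →ₗ[A] c.M n, g.comp (c.incl m) = f := by
    intro m n hnm hm f
    exact c.extend_of_ext m _ (c.ext_vanish (r + t + 2) h1 h2 m n hnm (by omega)) f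
  obtain ⟨D, x, y, hD, hg⟩ := hfac c (r + t + 1) hext
  refine chain_contradiction R A S hsimple hS c (t := t) ?_ hext D ?_ x y ?_
  · intro n _ hn
    exact c.nontrivial_of_not_projective n
      (c.not_projective (r + t + 2) h2 hnp' n (by omega))
  · intro m n hn hnm hm
    exact hD m n hn hnm (by omega)
  · intro m n hm hn _ _
    exact hg m n hm hn

end Engine

end Vale.Agent.P195
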