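import Mathlib
import Vale.Agent.P195.Defs
import Vale.Agent.P195.Criterion

/-!
# Algebras with a generator whose endomorphism algebra has global dimension at most three
-/

universe v u

namespace Vale.Agent.P195

open CategoryTheory

/-- `Hom_A(V, X)` as a type of its own, to carry the left action of `(End_A V)ᵐᵒᵖ`. -/
def HomV (A : Type u) [Ring A] (V X : Type u) [AddCommGroup V] [Module A V]
    [AddCommGroup X] [Module A X] : Type u := V →ₗ[A] X

section

variable {A : Type u} [Ring A] {V X Y Z : Type u} [AddCommGroup V] [Module A V]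
  [AddCommGroup X] [Module A X] [AddCommGroup Y] [Module A Y] [AddCommGroup Z] [Module A Z]

instance : AddCommGroup (HomV A V X) := inferInstanceAs (AddCommGroup (V →ₗ[A] X))

/-- The underlying linear map. -/
def HomV.hom (φ : HomV A V X) : V →ₗ[A] X := φ

/-- The element given by a linear map. -/
def HomV.mk (φ : V →ₗ[A] X) : HomV A V X := φ

@[ext] theorem HomV.ext {φ ψ : HomV A V X} (h : ∀ v, φ.hom v = ψ.hom v) : φ = ψ :=
  LinearMap.ext h

@[simp] theorem HomV.hom_mk (φ : V →ₗ[A] X) : (HomV.mk φ).hom = φ := rfl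
@[simp] theorem HomV.add_hom (φ ψ : HomV A V X) : (φ + ψ).hom = φ.hom + ψ.hom := rfl
@[simp] theorem HomV.zero_hom : (0 : HomV A V X).hom = 0 := rfl

instance : Module (Module.End A V)ᵐᵒᵖ (HomV A V X) where
  smul s φ := HomV.mk (φ.hom ∘ₗ s.unop)
  one_smul φ := by
    apply HomV.ext
    intro v
    rfl
  mul_smul s t φ := by
    apply HomV.ext
    intro v
    rfl
  smul_zero s := by
    apply HomV.ext
    intro v
    rfl
  smul_add s φ ψ := by
    apply HomV.ext
    intro v
    rfl
  add_smul s t φ := by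
    apply HomV.ext
    intro v
    exact φ.hom.map_add _ _
  zero_smul φ := by
    apply HomV.ext
    intro v
    exact φ.hom.map_zero

@[simp] theorem HomV.smul_hom (s : (Module.End A V)ᵐᵒᵖ) (φ : HomV A V X) (v : V) :
    (s • φ).hom v = φ.hom (s.unop v) := rfl

/-- Postcomposition. -/
def HomV.map (f : X →ₗ[A] Y) : HomV A V X →ₗ[(Module.End A V)ᵐᵒᵖ] HomV A V Y where
  toFun φ := HomV.mk (f ∘ₗ φ.hom)
  map_add' φ ψ := by
    apply HomV.ext
    intro v
    exact f.map_add _ _
  map_smul' s φ := by
    apply HomV.ext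
    intro v
    rfl

@[simp] theorem HomV.map_hom (f : X →ₗ[A] Y) (φ : HomV A V X) (v : V) :
    (HomV.map f φ).hom v = f (φ.hom v) := rfl

theorem HomV.map_injective (f : X →ₗ[A] Y) (hf : Function.Injective f) :
    Function.Injective (HomV.map (V := V) f) := by
  intro φ ψ h
  apply HomV.ext
  intro v
  apply hf
  exact LinearMap.congr_fun (congrArg HomV.hom h) v

theorem HomV.map_exact (f : X →ₗ[A] Y) (g : Y →ₗ[A] Z) (hf : Function.Injective f)
    (hfg : Function.Exact f g) : Function.Exact (HomV.map (V := V) f) (HomV.map (V := V) g) := by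
  intro φ
  constructor
  · intro h
    have hr : ∀ v, φ.hom v ∈ LinearMap.range f := fun v =>
      (hfg _).1 (LinearMap.congr_fun (congrArg HomV.hom h) v)
    refine ⟨HomV.mk ((LinearEquiv.ofInjective f hf).symm.toLinearMap ∘ₗ
      φ.hom.codRestrict _ hr), ?_⟩
    apply HomV.ext
    intro v
    have := LinearEquiv.apply_symm_apply (LinearEquiv.ofInjective f hf)
      (φ.hom.codRestrict _ hr v)
    exact congrArg Subtype.val this
  · rintro ⟨ψ, rfl⟩
    apply HomV.ext
    intro v
    exact (hfg _).2 ⟨_, rfl⟩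

/-- `Hom(V, V ^ k)` is free. -/
def HomV.powEquiv (k : ℕ) : (Fin k → (Module.End A V)ᵐᵒᵖ) ≃ₗ[(Module.End A V)ᵐᵒᵖ]
    HomV A V (Fin k → V) where
  toFun s := HomV.mk (LinearMap.pi fun j => (s j).unop)
  invFun φ j := MulOpposite.op (LinearMap.proj j ∘ₗ φ.hom)
  map_add' s t := by
    apply HomV.ext
    intro v
    rfl
  map_smul' r s := by
    apply HomV.ext
    intro v
    rfl
  left_inv s := by
    funext j
    rfl
  right_inv φ := by
    apply HomV.ext
    intro v
    rfl

theorem HomV.map_comp (f : X →ₗ[A] Y) (g : Y →ₗ[A] Z) :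
    (HomV.map (V := V) g) ∘ₗ HomV.map f = HomV.map (g ∘ₗ f) := rfl

theorem HomV.map_id : HomV.map (V := V) (LinearMap.id : X →ₗ[A] X) = LinearMap.id := rfl

theorem HomV.projective_of_inAdd (h : InAdd A V X) :
    Module.Projective (Module.End A V)ᵐᵒᵖ (HomV A V X) := by
  obtain ⟨k, i, p, hpi⟩ := h
  have h1 : Module.Projective (Module.End A V)ᵐᵒᵖ (HomV A V (Fin k → V)) :=
    Module.Projective.of_equiv (HomV.powEquiv k)
  refine Module.Projective.of_split (HomV.map i) (HomV.map p) ?_
  rw [HomV.map_comp, hpi, HomV.map_id]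

/-- The elements expressing that `V` is a generator. -/
theorem exists_generator_data (h : InAdd A V A) :
    ∃ (k : ℕ) (b : Fin k → (V →ₗ[A] A)) (w : Fin k → V), ∑ j, b j (w j) = 1 := by
  obtain ⟨k, i, p, hpi⟩ := h
  refine ⟨k, fun j => p ∘ₗ LinearMap.single A (fun _ => V) j, fun j => i 1 j, ?_⟩
  have h1 : p (i 1) = 1 := LinearMap.congr_fun hpi 1
  have hsum : i 1 = ∑ j, LinearMap.single A (fun _ : Fin k => V) j (i 1 j) :=
    (Finset.univ_sum_single (i 1)).symm
  rw [hsum, map_sum] at h1
  exact h1

theorem generator_expand {k : ℕ} (b : Fin k → (V →ₗ[A] A)) (w : Fin k → V)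
    (hbw : ∑ j, b j (w j) = 1) (x : X) :
    ∑ j, (LinearMap.toSpanSingleton A X x ∘ₗ b j) (w j) = x := by
  simp only [LinearMap.comp_apply, LinearMap.toSpanSingleton_apply]
  rw [← Finset.sum_smul, hbw, one_smul]

/-- `Hom(V, -)` is full when `V` is a generator. -/
theorem HomV.full (h : InAdd A V A)
    (Θ : HomV A V X →ₗ[(Module.End A V)ᵐᵒᵖ] HomV A V Y) :
    ∃ θ : X →ₗ[A] Y, HomV.map θ = Θ := by
  obtain ⟨k, b, w, hbw⟩ := exists_generator_data h
  let θ₀ : X → Y := fun x =>
    ∑ j, (Θ (HomV.mk (LinearMap.toSpanSingleton A X x ∘ₗ b j))).hom (w j)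
  have hadd : ∀ x y, θ₀ (x + y) = θ₀ x + θ₀ y := by
    intro x y
    simp only [θ₀]
    rw [← Finset.sum_add_distrib]
    refine Finset.sum_congr rfl fun j _ => ?_
    have : HomV.mk (LinearMap.toSpanSingleton A X (x + y) ∘ₗ b j) =
        HomV.mk (LinearMap.toSpanSingleton A X x ∘ₗ b j) +
        HomV.mk (LinearMap.toSpanSingleton A X y ∘ₗ b j) := by
      apply HomV.ext
      intro v
      simp [LinearMap.toSpanSingleton_apply]
    rw [this, map_add]
    rfl
  have hkey : ∀ (φ : HomV A V X) (v : V), θ₀ (φ.hom v) = (Θ φ).hom v := by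
    intro φ v
    simp only [θ₀]
    have h1 : ∀ j, HomV.mk (LinearMap.toSpanSingleton A X (φ.hom v) ∘ₗ b j) =
        (MulOpposite.op (LinearMap.toSpanSingleton A V v ∘ₗ b j) :
          (Module.End A V)ᵐᵒᵖ) • φ := by
      intro j
      apply HomV.ext
      intro v'
      simp [LinearMap.toSpanSingleton_apply]
    simp only [h1, map_smul, HomV.smul_hom, MulOpposite.unop_op]
    rw [← map_sum, generator_expand b w hbw v]
  refine ⟨{ toFun := θ₀, map_add' := hadd, map_smul' := ?_ }, ?_⟩
  · intro a x
    have h0 : θ₀ 0 = 0 := by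
      have := hadd 0 0
      rw [add_zero] at this
      simpa using this
    have hsum : ∀ (s : Finset (Fin k)) (F : Fin k → X), θ₀ (∑ j ∈ s, F j) = ∑ j ∈ s, θ₀ (F j) := by
      intro s F
      induction s using Finset.cons_induction with
      | empty => simpa using h0
      | cons i s hi ih => rw [Finset.sum_cons, Finset.sum_cons, hadd, ih]
    have h2 : a • x = ∑ j, (HomV.mk (LinearMap.toSpanSingleton A X x ∘ₗ b j)).hom (a • w j) := by
      conv_lhs => rw [← generator_expand b w hbw x, Finset.smul_sum]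
      refine Finset.sum_congr rfl fun j _ => ?_
      rw [HomV.hom_mk, map_smul]
    rw [h2, hsum]
    simp only [hkey]
    simp only [map_smul, RingHom.id_apply]
    rw [← Finset.smul_sum]
  · ext φ v
    exact hkey φ v

/-- `Hom(V, -)` is faithful when `V` is a generator. -/
theorem HomV.faithful (h : InAdd A V A) {θ θ' : X →ₗ[A] Y}
    (hθ : HomV.map (V := V) θ = HomV.map θ') : θ = θ' := by
  obtain ⟨k, b, w, hbw⟩ := exists_generator_data h
  ext x
  rw [← generator_expand b w hbw x, map_sum, map_sum]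
  refine Finset.sum_congr rfl fun j _ => ?_
  have := LinearMap.congr_fun hθ (HomV.mk (LinearMap.toSpanSingleton A X x ∘ₗ b j))
  exact LinearMap.congr_fun (congrArg HomV.hom this) (w j)

/-- If `Hom(V, X)` is finitely generated projective and `V` is a generator, then
`X ∈ add V`. -/
theorem inAdd_of_projective_hom (h : InAdd A V A)
    (hfin : Module.Finite (Module.End A V)ᵐᵒᵖ (HomV A V X))
    (hproj : Module.Projective (Module.End A V)ᵐᵒᵖ (HomV A V X)) : InAdd A V X := by
  obtain ⟨n, f, hf⟩ := Module.Finite.exists_fin' (Module.End A V)ᵐᵒᵖ (HomV A V X)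
  obtain ⟨s, hs⟩ := Module.projective_lifting_property f LinearMap.id hf
  obtain ⟨i, hi⟩ := HomV.full h ((HomV.powEquiv n).toLinearMap ∘ₗ s)
  obtain ⟨p, hp⟩ := HomV.full h (f ∘ₗ (HomV.powEquiv n).symm.toLinearMap)
  refine ⟨n, i, p, ?_⟩
  apply HomV.faithful h
  rw [← HomV.map_comp, hi, hp, HomV.map_id, ← hs]
  ext φ
  simp

end

section Finiteness

variable (R : Type v) [CommRing R] [IsArtinianRing R] (A : Type u) [Ring A] [Algebra R A]
  [Module.Finite R A]

include R in
theorem finite_homV (V X : Type u) [AddCommGroup V] [Module A V] [AddCommGroup X] [Module A X]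
    [Module.Finite A V] [Module.Finite A X] :
    Module.Finite (Module.End A V)ᵐᵒᵖ (HomV A V X) := by
  let _ := resModule R A X
  have := resTower R A X
  have h1 : IsFiniteLength R (V →ₗ[A] X) := hom_finiteLength R A
  rw [isFiniteLength_iff_isNoetherian_isArtinian] at h1
  have h2 : Module.Finite R (V →ₗ[A] X) := by
    have := h1.1
    infer_instance
  obtain ⟨s, hs⟩ := h2.fg_top
  let s' : Finset (HomV A V X) := s
  refine ⟨⟨s', ?_⟩⟩
  let _ := resModule R A V
  have := resTower R A V
  let N₀ : Submodule (Module.End A V)ᵐᵒᵖ (HomV A V X) :=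
    Submodule.span (Module.End A V)ᵐᵒᵖ (s' : Set (HomV A V X))
  let N : Submodule R (V →ₗ[A] X) :=
    { carrier := {ψ | HomV.mk ψ ∈ N₀}
      add_mem' := fun {ψ χ} h4 h5 => N₀.add_mem h4 h5
      zero_mem' := N₀.zero_mem
      smul_mem' := fun r ψ h4 => by
        change HomV.mk ψ ∈ N₀ at h4
        have h6 : (HomV.mk (r • ψ) : HomV A V X) =
            (MulOpposite.op (r • (1 : Module.End A V)) : (Module.End A V)ᵐᵒᵖ) •
              (HomV.mk ψ : HomV A V X) := by
          apply HomV.ext
          intro v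
          change r • ψ v = ψ (r • v)
          exact (LinearMap.map_smul_of_tower ψ r v).symm
        change HomV.mk (r • ψ) ∈ N₀
        rw [h6]
        exact N₀.smul_mem _ h4 }
  have hle : Submodule.span R (s : Set (V →ₗ[A] X)) ≤ N := by
    rw [Submodule.span_le]
    intro ψ hψ
    exact Submodule.subset_span (R := (Module.End A V)ᵐᵒᵖ) (M := HomV A V X)
      (s := (s' : Set (HomV A V X))) hψ
  rw [hs] at hle
  rw [eq_top_iff]
  intro φ _
  exact hle (x := φ.hom) trivial

end Finiteness

section Dimension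

/-- Short exact sequences from linear maps. -/
theorem shortExact_of_linear {S : Type u} [Ring S] {X Y Z : Type u} [AddCommGroup X]
    [Module S X] [AddCommGroup Y] [Module S Y] [AddCommGroup Z] [Module S Z]
    (f : X →ₗ[S] Y) (g : Y →ₗ[S] Z) (hf : Function.Injective f) (hfg : Function.Exact f g)
    (hg : Function.Surjective g) :
    (ShortComplex.mk (ModuleCat.ofHom f) (ModuleCat.ofHom g)
      (ModuleCat.hom_ext (LinearMap.ext fun x => (hfg _).2 ⟨x, rfl⟩))).ShortExact :=
  { exact := by
      rw [ShortComplex.ShortExact.moduleCat_exact_iff_function_exact]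
      exact hfg
    mono_f := (ModuleCat.mono_iff_injective _).2 hf
    epi_g := (ModuleCat.epi_iff_surjective _).2 hg }

/-- Dimension shift for a short exact sequence with projective middle term. -/
theorem pd_shift {S : Type u} [Ring S] {X Y Z : Type u} [AddCommGroup X]
    [Module S X] [AddCommGroup Y] [Module S Y] [AddCommGroup Z] [Module S Z]
    (f : X →ₗ[S] Y) (g : Y →ₗ[S] Z) (hf : Function.Injective f) (hfg : Function.Exact f g)
    (hg : Function.Surjective g) (hY : Module.Projective S Y) (n : ℕ)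
    (hZ : HasProjectiveDimensionLE (ModuleCat.of S Z) (n + 1)) :
    HasProjectiveDimensionLE (ModuleCat.of S X) n := by
  have h := shortExact_of_linear f g hf hfg hg
  have hY' : Projective (ModuleCat.of S Y) := (IsProjective.iff_projective (R := S) (P := Y)).1 hY
  exact (h.hasProjectiveDimensionLT_X₃_iff n hY').1 hZ

variable (R : Type v) [CommRing R] [IsArtinianRing R] (A : Type u) [Ring A] [Algebra R A]
  [Module.Finite R A]

include R in
/-- If `V` is a finitely generated generator such that `(End_A V)ᵐᵒᵖ` has global dimension at most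
three (on finitely generated modules), then `A` is an Igusa-Todorov algebra. -/
theorem isIgusaTodorov_of_generator (V : ModuleCat.{u} A) [Module.Finite A V]
    (hgen : InAdd A V A)
    (hgl : ∀ Y : ModuleCat.{u} (Module.End A V)ᵐᵒᵖ, Module.Finite (Module.End A V)ᵐᵒᵖ Y →
      HasProjectiveDimensionLE Y 3) : IsIgusaTodorov A := by
  have hart : IsArtinianRing A := IsArtinianRing.of_finite R A
  refine ⟨2, V, inferInstance, ?_⟩
  intro X hX
  obtain ⟨c, hc⟩ := exists_chain X hX
  have hfinM := c.finM
  have hfinP := c.finP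
  -- the second syzygy
  refine ⟨c.M 2, hc ▸ c.isSyzygyOf 0 2, ?_⟩
  have hPadd : ∀ m, InAdd A V (c.P m) := by
    intro m
    have h1 : InAdd A (ModuleCat.of A A) (c.P m) := inAdd_self_of_projective (c.finP m) (c.projP m)
    obtain ⟨k, i, p, hpi⟩ := h1
    obtain ⟨l, i', p', hpi'⟩ := hgen
    -- `A ^ k` is a direct summand of `V ^ (k * l)`
    refine ⟨k * l, ?_⟩
    let e := (LinearEquiv.funCongrLeft A V (finProdFinEquiv (m := k) (n := l)))
    let a : (Fin k → A) →ₗ[A] (Fin k × Fin l → V) :=
      LinearMap.pi fun q => LinearMap.proj q.2 ∘ₗ i' ∘ₗ LinearMap.proj q.1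
    let b : (Fin k × Fin l → V) →ₗ[A] (Fin k → A) :=
      LinearMap.pi fun j => p' ∘ₗ LinearMap.pi fun q => LinearMap.proj (j, q)
    have hba : b ∘ₗ a = LinearMap.id := by
      refine LinearMap.ext fun y => funext fun j => ?_
      exact LinearMap.congr_fun hpi' (y j)
    refine ⟨e.symm.toLinearMap ∘ₗ a ∘ₗ i, p ∘ₗ b ∘ₗ e.toLinearMap, ?_⟩
    refine LinearMap.ext fun y => ?_
    have h2 : ∀ z, b (a z) = z := LinearMap.congr_fun hba
    have h3 : ∀ z, p (i z) = z := LinearMap.congr_fun hpi
    simp only [LinearMap.comp_apply, LinearEquiv.coe_coe, LinearEquiv.apply_symm_apply,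
      LinearMap.id_apply]
    rw [h2, h3]
  -- the projective dimension of `Hom(V, M 2)`
  have hpd : HasProjectiveDimensionLE (ModuleCat.of (Module.End A V)ᵐᵒᵖ (HomV A V (c.M 2))) 1 := by
    let F := HomV.map (V := V) (c.incl 0 ∘ₗ c.proj 1)
    let B := LinearMap.range F
    have hC : HasProjectiveDimensionLE
        (ModuleCat.of (Module.End A V)ᵐᵒᵖ (HomV A V (c.P 0) ⧸ B)) 3 := by
      apply hgl
      have := finite_homV R A V (c.P 0)
      exact inferInstanceAs (Module.Finite _ (HomV A V (c.P 0) ⧸ B))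
    have hB : HasProjectiveDimensionLE (ModuleCat.of (Module.End A V)ᵐᵒᵖ B) 2 :=
      pd_shift B.subtype B.mkQ B.injective_subtype (LinearMap.exact_subtype_mkQ B)
        B.mkQ_surjective (HomV.projective_of_inAdd (hPadd 0)) 2 hC
    refine pd_shift (HomV.map (V := V) (c.incl 1)) F.rangeRestrict
      (HomV.map_injective _ (c.inj 1)) ?_ F.surjective_rangeRestrict
      (HomV.projective_of_inAdd (hPadd 1)) 1 hB
    intro φ
    have h4 := HomV.map_exact (V := V) (c.incl 1) (c.proj 1) (c.inj 1) (c.exact 1) φ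
    rw [← h4]
    constructor
    · intro h5
      have h6 : HomV.map (V := V) (c.incl 0) (HomV.map (V := V) (c.proj 1) φ) =
          HomV.map (V := V) (c.incl 0) 0 := by
        rw [map_zero]
        exact congrArg Subtype.val h5
      exact HomV.map_injective _ (c.inj 0) h6
    · intro h5
      apply Subtype.ext
      change HomV.map (V := V) (c.incl 0) (HomV.map (V := V) (c.proj 1) φ) = 0
      rw [h5, map_zero]
  -- an approximation of `M 2`
  have hfinHom := finite_homV R A V (c.M 2)
  obtain ⟨n, f, hf⟩ := Module.Finite.exists_fin' (Module.End A V)ᵐᵒᵖ (HomV A V (c.M 2))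
  obtain ⟨g, hg⟩ := HomV.full hgen (f ∘ₗ (HomV.powEquiv n).symm.toLinearMap)
  have hsurjHom : Function.Surjective (HomV.map (V := V) g) := by
    rw [hg]
    exact hf.comp (HomV.powEquiv n).symm.surjective
  have hsurj : Function.Surjective g := by
    intro x
    obtain ⟨k, b, w, hbw⟩ := exists_generator_data hgen
    rw [← LinearMap.mem_range, ← generator_expand b w hbw x]
    refine Submodule.sum_mem _ fun j _ => ?_
    obtain ⟨φ, hφ⟩ := hsurjHom (HomV.mk (LinearMap.toSpanSingleton A _ x ∘ₗ b j))
    have := LinearMap.congr_fun (congrArg HomV.hom hφ) (w j)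
    exact ⟨_, this⟩
  have hK : InAdd A V (LinearMap.ker g) := by
    have hfinK : Module.Finite (Module.End A V)ᵐᵒᵖ (HomV A V (LinearMap.ker g)) :=
      finite_homV R A V (LinearMap.ker g)
    apply inAdd_of_projective_hom hgen hfinK
    have h7 : HasProjectiveDimensionLE
        (ModuleCat.of (Module.End A V)ᵐᵒᵖ (HomV A V (LinearMap.ker g))) 0 :=
      pd_shift (HomV.map (V := V) (LinearMap.ker g).subtype) (HomV.map (V := V) g)
        (HomV.map_injective _ (Submodule.injective_subtype _))
        (HomV.map_exact _ _ (Submodule.injective_subtype _) (LinearMap.exact_subtype_ker_map g))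
        hsurjHom (Module.Projective.of_equiv (HomV.powEquiv n)) 0 hpd
    rw [← projective_iff_hasProjectiveDimensionLE_zero] at h7
    exact (IsProjective.iff_projective (R := (Module.End A V)ᵐᵒᵖ)
      (P := HomV A V (LinearMap.ker g))).2 h7
  refine ⟨ModuleCat.of A (LinearMap.ker g), ModuleCat.of A (Fin n → V),
    (LinearMap.ker g).subtype, g, hK, ⟨n, LinearMap.id, LinearMap.id, rfl⟩,
    Submodule.injective_subtype _, LinearMap.exact_subtype_ker_map g, hsurj⟩

end Dimension

end Vale.Agent.P195
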