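import Mathlib
import Vale.Agent.P195.Defs
import Vale.Agent.P195.Criterion

/-!
# Artin algebras with two ideals whose quotients are representation-finite
-/

universe v u

namespace Vale.Agent.P195

open CategoryTheory

section

variable {A : Type u} [Ring A]

theorem InAdd.prod {V U₁ U₂ : ModuleCat.{u} A} (h₁ : InAdd A V U₁) (h₂ : InAdd A V U₂) :
    InAdd A V (ModuleCat.of A (U₁ × U₂)) := by
  obtain ⟨k, i, p, hpi⟩ := h₁
  obtain ⟨l, i', p', hpi'⟩ := h₂
  let e : (Fin (k + l) → V) ≃ₗ[A] (Fin k ⊕ Fin l → V) :=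
    LinearEquiv.funCongrLeft A V finSumFinEquiv
  let e' : (Fin k ⊕ Fin l → V) ≃ₗ[A] (Fin k → V) × (Fin l → V) :=
    LinearEquiv.sumArrowLequivProdArrow (Fin k) (Fin l) A V
  let E := e.trans e'
  refine ⟨k + l, E.symm.toLinearMap ∘ₗ LinearMap.prodMap i i',
    LinearMap.prodMap p p' ∘ₗ E.toLinearMap, ?_⟩
  refine LinearMap.ext fun y => ?_
  have h3 : ∀ z, p (i z) = z := LinearMap.congr_fun hpi
  have h4 : ∀ z, p' (i' z) = z := LinearMap.congr_fun hpi'
  simp only [LinearMap.comp_apply, LinearEquiv.coe_coe, LinearEquiv.apply_symm_apply,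
    LinearMap.id_apply, LinearMap.prodMap_apply]
  rw [h3, h4]

/-- Kernels of projective presentations of modules in `add W`. -/
theorem syzygy_inAdd {W QW U Q : ModuleCat.{u} A} (π : QW →ₗ[A] W) (hπ : Function.Surjective π)
    (hQW : Module.Projective A QW) (hU : InAdd A W U) (ρ : Q →ₗ[A] U)
    (hρ : Function.Surjective ρ) (hQfin : Module.Finite A Q) (hQ : Module.Projective A Q) :
    InAdd A (ModuleCat.of A (LinearMap.ker π × A)) (ModuleCat.of A (LinearMap.ker ρ)) := by
  obtain ⟨k, i, p, hpi⟩ := hU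
  let πk : (Fin k → QW) →ₗ[A] (Fin k → W) := LinearMap.pi fun j => π ∘ₗ LinearMap.proj j
  have hπk : Function.Surjective πk := by
    intro y
    choose x hx using fun j => hπ (y j)
    exact ⟨x, funext hx⟩
  have hQWk : Module.Projective A (Fin k → QW) :=
    Module.Projective.of_equiv (DirectSum.linearEquivFunOnFintype A (Fin k) (fun _ => QW))
  obtain ⟨ti, hti⟩ := Module.projective_lifting_property πk (i ∘ₗ ρ) hπk
  obtain ⟨tp, htp⟩ := Module.projective_lifting_property ρ (p ∘ₗ πk) hρ
  -- the induced maps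
  have h1 : ∀ x : LinearMap.ker ρ, ∀ j, ti x j ∈ LinearMap.ker π := by
    intro x j
    have h := LinearMap.congr_fun hti (x : Q)
    have hx : ρ (x : Q) = 0 := x.2
    simp only [LinearMap.comp_apply, hx, map_zero] at h
    exact congrFun h j
  let i' : LinearMap.ker ρ →ₗ[A] (Fin k → LinearMap.ker π) :=
    LinearMap.pi fun j => (LinearMap.proj j ∘ₗ ti ∘ₗ (LinearMap.ker ρ).subtype).codRestrict _
      (fun x => h1 x j)
  have h2 : ∀ y : Fin k → LinearMap.ker π, tp (fun j => (y j : QW)) ∈ LinearMap.ker ρ := by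
    intro y
    have h := LinearMap.congr_fun htp (fun j => (y j : QW))
    rw [LinearMap.mem_ker]
    have hy : πk (fun j => (y j : QW)) = 0 := funext fun j => (y j).2
    simp only [LinearMap.comp_apply] at h
    rw [h, hy, map_zero]
  let p' : (Fin k → LinearMap.ker π) →ₗ[A] LinearMap.ker ρ :=
    (tp ∘ₗ LinearMap.pi fun j => (LinearMap.ker π).subtype ∘ₗ LinearMap.proj j).codRestrict _ h2
  let s₀ : Q →ₗ[A] Q := tp ∘ₗ ti - LinearMap.id
  have h3 : ∀ q : Q, s₀ q ∈ LinearMap.ker ρ := by
    intro q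
    rw [LinearMap.mem_ker, LinearMap.sub_apply, map_sub, LinearMap.comp_apply]
    have e1 := LinearMap.congr_fun htp (ti q)
    have e2 := LinearMap.congr_fun hti q
    have e3 := LinearMap.congr_fun hpi (ρ q)
    simp only [LinearMap.comp_apply] at e1 e2 e3
    rw [e1, e2, e3]
    simp
  let s : Q →ₗ[A] LinearMap.ker ρ := s₀.codRestrict _ h3
  have hadd : InAdd A (ModuleCat.of A (LinearMap.ker π × A))
      (ModuleCat.of A ((ModuleCat.of A (Fin k → LinearMap.ker π)) × Q)) := by
    apply InAdd.prod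
    · exact InAdd.prod_right (V := ModuleCat.of A (LinearMap.ker π)) (W := ModuleCat.of A A)
        ⟨k, LinearMap.id, LinearMap.id, rfl⟩
    · exact InAdd.prod_left (V := ModuleCat.of A (LinearMap.ker π)) (W := ModuleCat.of A A)
        (inAdd_self_of_projective hQfin hQ)
  refine hadd.summand (i'.prod (LinearMap.ker ρ).subtype)
    (LinearMap.coprod p' (-s)) ?_
  refine LinearMap.ext fun x => ?_
  apply Subtype.ext
  have e4 : ((p' (i' x) : LinearMap.ker ρ) : Q) = tp (ti (x : Q)) := rfl
  have e5 : ((s (x : Q) : LinearMap.ker ρ) : Q) = tp (ti (x : Q)) - (x : Q) := rfl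
  have e6 : (LinearMap.coprod p' (-s)) ((i'.prod (LinearMap.ker ρ).subtype) x) =
      p' (i' x) + -(s (x : Q)) := rfl
  change (((LinearMap.coprod p' (-s)) ((i'.prod (LinearMap.ker ρ).subtype) x) :
    LinearMap.ker ρ) : Q) = x
  rw [e6, Submodule.coe_add, Submodule.coe_neg, e4, e5]
  abel

/-- Modules killed by an ideal `I` with `A ⧸ I` of finite representation type. -/
theorem exists_add_of_finiteRepType (I : Ideal A) [I.IsTwoSided] (h : FiniteRepType (A ⧸ I)) :
    ∃ W : ModuleCat.{u} A, Module.Finite A W ∧ ∀ X : ModuleCat.{u} A, Module.Finite A X →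
      (∀ a ∈ I, ∀ x : X, a • x = 0) → InAdd A W X := by
  obtain ⟨V, hV, hX⟩ := h
  let _ : Module A V := Module.compHom V (Ideal.Quotient.mk I)
  have hsmul : ∀ (a : A) (v : V), a • v = (Ideal.Quotient.mk I a) • v := fun a v => rfl
  refine ⟨ModuleCat.of A V, ?_, ?_⟩
  · obtain ⟨s, hs⟩ := hV.fg_top
    refine ⟨⟨s, ?_⟩⟩
    rw [eq_top_iff]
    intro v _
    have hv : v ∈ Submodule.span (A ⧸ I) (s : Set V) := by rw [hs]; trivial
    refine Submodule.span_induction (p := fun w _ => w ∈ Submodule.span A (s : Set V))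
      ?_ ?_ ?_ ?_ hv
    · intro w hw
      exact Submodule.subset_span hw
    · exact Submodule.zero_mem _
    · intro w w' _ _ h1 h2
      exact Submodule.add_mem _ h1 h2
    · intro a w _ h1
      obtain ⟨a, rfl⟩ := Ideal.Quotient.mk_surjective a
      rw [← hsmul]
      exact Submodule.smul_mem _ _ h1
  · intro X hfin hkill
    have htors : Module.IsTorsionBySet A X I := fun x a => hkill a a.2 x
    let _ : Module (A ⧸ I) X := htors.module
    have hsmul' : ∀ (a : A) (x : X), (Ideal.Quotient.mk I a) • x = a • x := fun a x => rfl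
    have hfin' : Module.Finite (A ⧸ I) X := by
      obtain ⟨s, hs⟩ := hfin.fg_top
      refine ⟨⟨s, ?_⟩⟩
      rw [eq_top_iff]
      intro v _
      have hv : v ∈ Submodule.span A (s : Set X) := by rw [hs]; trivial
      refine Submodule.span_induction (p := fun w _ => w ∈ Submodule.span (A ⧸ I) (s : Set X))
        ?_ ?_ ?_ ?_ hv
      · intro w hw
        exact Submodule.subset_span hw
      · exact Submodule.zero_mem _
      · intro w w' _ _ h1 h2
        exact Submodule.add_mem _ h1 h2
      · intro a w _ h1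
        rw [← hsmul']
        exact Submodule.smul_mem _ _ h1
    obtain ⟨k, i, p, hpi⟩ := hX (ModuleCat.of (A ⧸ I) X) hfin'
    let i' : X →ₗ[A] (Fin k → V) :=
      { toFun := i
        map_add' := i.map_add
        map_smul' := fun a x => by
          rw [← hsmul', RingHom.id_apply]
          exact i.map_smul (Ideal.Quotient.mk I a) x }
    let p' : (Fin k → V) →ₗ[A] X :=
      { toFun := p
        map_add' := p.map_add
        map_smul' := fun a x => by
          rw [RingHom.id_apply, ← hsmul']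
          exact p.map_smul (Ideal.Quotient.mk I a) x }
    exact ⟨k, i', p', LinearMap.ext fun x => LinearMap.congr_fun hpi x⟩

/-- If `I₂ I₁ rad A = 0` and `A ⧸ I₁`, `A ⧸ I₂` have finite representation type, then `A` is an
Igusa-Todorov algebra. -/
theorem isIgusaTodorov_of_two_ideals [IsArtinianRing A] (I₁ I₂ : Ideal A) [I₁.IsTwoSided]
    [I₂.IsTwoSided] (h : I₂ * I₁ * Ring.jacobson A = ⊥) (h₁ : FiniteRepType (A ⧸ I₁))
    (h₂ : FiniteRepType (A ⧸ I₂)) : IsIgusaTodorov A := by
  obtain ⟨W₁, hW₁, hadd₁⟩ := exists_add_of_finiteRepType I₁ h₁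
  obtain ⟨W₂, hW₂, hadd₂⟩ := exists_add_of_finiteRepType I₂ h₂
  obtain ⟨QW, π, hQWfin, hQW, hπ, -⟩ := exists_minimal_presentation (A := A) W₁
  refine ⟨1, ModuleCat.of A (W₂ × ModuleCat.of A (LinearMap.ker π × A)), ?_, ?_⟩
  · exact inferInstanceAs (Module.Finite A (W₂ × (LinearMap.ker π × A)))
  intro X hX
  obtain ⟨c, hc⟩ := exists_chain X hX
  have hfinM := c.finM
  have hfinP := c.finP
  refine ⟨c.M 1, hc ▸ c.isSyzygyOf 0 1, ?_⟩
  set K := c.M 1 with hK
  let N : Submodule A K := I₁ • (⊤ : Submodule A K)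
  have hN : InAdd A W₂ (ModuleCat.of A N) := by
    apply hadd₂
    · exact inferInstanceAs (Module.Finite A N)
    intro a ha x
    apply Subtype.ext
    have hmem : a • (x : K) ∈ I₂ • (I₁ • (⊤ : Submodule A K)) := Submodule.smul_mem_smul ha x.2
    have hbot : I₂ • (I₁ • (⊤ : Submodule A K)) = ⊥ := by
      apply Submodule.map_injective_of_injective (c.inj 0)
      rw [Submodule.map_bot, eq_bot_iff, Submodule.map_smul'', Submodule.map_smul'',
        Submodule.map_top]
      have h1 : I₂ • (I₁ • LinearMap.range (c.incl 0)) ≤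
          I₂ • (I₁ • (Ring.jacobson A • (⊤ : Submodule A (c.P 0)))) :=
        smul_mono_right _ (smul_mono_right _ (c.minimal 0))
      refine h1.trans ?_
      rw [← Submodule.mul_smul, ← Submodule.mul_smul, h, Submodule.bot_smul]
    rw [hbot] at hmem
    exact hmem
  have hL : InAdd A W₁ (ModuleCat.of A (K ⧸ N)) := by
    apply hadd₁
    · exact inferInstanceAs (Module.Finite A (K ⧸ N))
    intro a ha x
    obtain ⟨y, rfl⟩ := Submodule.mkQ_surjective N x
    change a • N.mkQ y = 0
    rw [← map_smul, Submodule.mkQ_apply, Submodule.Quotient.mk_eq_zero]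
    exact Submodule.smul_mem_smul ha trivial
  have hfinL : Module.Finite A (K ⧸ N) := inferInstance
  obtain ⟨Q, ρ, hQfin, hQ, hρ, -⟩ := exists_minimal_presentation (A := A) (K ⧸ N)
  obtain ⟨q, hq⟩ := Module.projective_lifting_property N.mkQ ρ N.mkQ_surjective
  have hker := syzygy_inAdd π hπ hQW hL (Q := Q) ρ hρ hQfin hQ
  -- the map `N × Q → K`
  let g : (N × Q) →ₗ[A] K := LinearMap.coprod N.subtype q
  have hqmem : ∀ x : LinearMap.ker ρ, q x ∈ N := by
    intro x
    have h1 := LinearMap.congr_fun hq (x : Q)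
    have hx : ρ (x : Q) = 0 := x.2
    rw [hx, LinearMap.comp_apply, Submodule.mkQ_apply, Submodule.Quotient.mk_eq_zero] at h1
    exact h1
  let f : LinearMap.ker ρ →ₗ[A] (N × Q) :=
    LinearMap.prod (-(q ∘ₗ (LinearMap.ker ρ).subtype).codRestrict N hqmem)
      (LinearMap.ker ρ).subtype
  refine ⟨ModuleCat.of A (LinearMap.ker ρ), ModuleCat.of A (N × Q), f, g, ?_, ?_, ?_, ?_, ?_⟩
  · exact hker.prod_left
  · exact InAdd.prod hN.prod_right
      ((inAdd_self_of_projective hQfin hQ).prod_left (V := ModuleCat.of A (LinearMap.ker π))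
        ).prod_left
  · intro x y hxy
    exact Subtype.ext (congrArg Prod.snd hxy)
  · rintro ⟨n, x⟩
    constructor
    · intro h3
      have h4 : (n : K) + q x = 0 := h3
      have hx : ρ x = 0 := by
        have h5 := LinearMap.congr_fun hq x
        rw [LinearMap.comp_apply] at h5
        rw [← h5, Submodule.mkQ_apply, Submodule.Quotient.mk_eq_zero]
        have h6 : q x = -(n : K) := by
          rw [eq_neg_iff_add_eq_zero, add_comm]
          exact h4
        rw [h6]
        exact N.neg_mem n.2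
      refine ⟨⟨x, hx⟩, ?_⟩
      apply Prod.ext
      · apply Subtype.ext
        change -(q x) = (n : K)
        rw [neg_eq_iff_add_eq_zero, add_comm]
        exact h4
      · rfl
    · rintro ⟨y, hy⟩
      rw [← hy]
      change -(q y) + q y = 0
      rw [neg_add_cancel]
  · intro y
    obtain ⟨x, hx⟩ := hρ (N.mkQ y)
    have h5 := LinearMap.congr_fun hq x
    rw [LinearMap.comp_apply, hx] at h5
    have h6 : y - q x ∈ N := by
      rw [← Submodule.Quotient.mk_eq_zero, Submodule.Quotient.mk_sub]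
      have h7 : Submodule.Quotient.mk (p := N) (q x) = Submodule.Quotient.mk y := h5
      rw [h7, sub_self]
    refine ⟨(⟨y - q x, h6⟩, x), ?_⟩
    change (y - q x) + q x = y
    abel

end

end Vale.Agent.P195
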