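import Mathlib
import Vale.Agent.P195.Defs
import Vale.Agent.P195.Criterion
import Vale.Agent.P195.RepDim
import Vale.Agent.P195.TwoIdeals

/-!
# Consequences of the criterion
-/

universe v u

namespace Vale.Agent.P195

open CategoryTheory

section

variable (R : Type v) [CommRing R] [IsArtinianRing R] (A : Type u) [Ring A] [Algebra R A]
    [Module.Finite R A]

include R in
/-- The uniform statement for Igusa-Todorov algebras. -/
theorem uniform_of_igusaTodorov (hA : IsIgusaTodorov A) :
    ∃ N : ℕ, ∀ (M : Type u) [AddCommGroup M] [Module A M] [Module.Finite A M],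
      (∀ i : ℕ, 1 ≤ i → i ≤ N →
        Subsingleton (Abelian.Ext (ModuleCat.of A M) (ModuleCat.of A M) i)) →
      (∀ i : ℕ, 1 ≤ i → i ≤ N →
        Subsingleton (Abelian.Ext (ModuleCat.of A M) (ModuleCat.of A A) i)) →
      Module.Projective A M := by
  have hart : IsArtinianRing A := IsArtinianRing.of_finite R A
  obtain ⟨s, V, hV, hIT⟩ := hA
  obtain ⟨t, ht⟩ := main_criterion R A V
  refine ⟨s + 2 * t + 2, ?_⟩
  intro M _ _ hM h1 h2
  obtain ⟨c, hc⟩ := exists_chain (ModuleCat.of A M) hM
  rw [← hc] at h1 h2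
  have hproj := ht c (s + 2 * t + 1) (fun k => (2 * k + 1) + s)
    (by intro k l hkl; have : (k : ℕ) < l := hkl; omega) (by intro k; omega)
    (by intro k; have := k.2; omega) h1 h2 (by
      intro k
      obtain ⟨K, hK, hres⟩ := hIT (c.M (0 + (2 * k + 1))) (c.finM _)
      exact ⟨K, (c.isSyzygyOf 0 (2 * k + 1)).trans hK, hres⟩)
  rw [hc] at hproj
  exact hproj

include R in
theorem isIgusaTodorov_of_hasGenerator (h : HasGeneratorOfDimThree A) : IsIgusaTodorov A := by
  obtain ⟨V, hV, hgen, hgl⟩ := h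
  exact isIgusaTodorov_of_generator R A V hgen hgl

/-- Artin algebras with radical cube zero are Igusa-Todorov. -/
theorem isIgusaTodorov_of_radCubeZero [IsArtinianRing A] (hJ : Ring.jacobson A ^ 3 = ⊥) :
    IsIgusaTodorov A := by
  have hrep : FiniteRepType (A ⧸ Ring.jacobson A) := by
    refine ⟨ModuleCat.of _ (A ⧸ Ring.jacobson A), inferInstanceAs (Module.Finite _ (A ⧸ _)), ?_⟩
    intro X hX
    have : IsSemisimpleRing (A ⧸ Ring.jacobson A) := inferInstance
    have hproj : Module.Projective (A ⧸ Ring.jacobson A) X :=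
      Module.projective_of_isSemisimpleRing _ _
    exact inAdd_self_of_projective hX hproj
  refine isIgusaTodorov_of_two_ideals (Ring.jacobson A) (Ring.jacobson A) ?_ hrep hrep
  rw [← hJ, Submodule.pow_succ, Submodule.pow_succ, Submodule.pow_one]

include R in
/-- The module-wise criterion. -/
theorem projective_of_short_resolutions (M : Type u) [AddCommGroup M] [Module A M]
    [hM : Module.Finite A M]
    (h1 : ∀ i : ℕ, 1 ≤ i →
      Subsingleton (Abelian.Ext (ModuleCat.of A M) (ModuleCat.of A M) i))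
    (h2 : ∀ i : ℕ, 1 ≤ i →
      Subsingleton (Abelian.Ext (ModuleCat.of A M) (ModuleCat.of A A) i))
    (h : ∃ V : ModuleCat.{u} A, Module.Finite A V ∧ ∀ n₀ : ℕ, ∃ n : ℕ, n₀ ≤ n ∧
      ∃ K : ModuleCat.{u} A, IsSyzygyOf (ModuleCat.of A M) n K ∧ ShortResolution A V K) :
    Module.Projective A M := by
  have hart : IsArtinianRing A := IsArtinianRing.of_finite R A
  obtain ⟨V, hV, hinf⟩ := h
  obtain ⟨t, ht⟩ := main_criterion R A V
  obtain ⟨c, hc⟩ := exists_chain (ModuleCat.of A M) hM
  rw [← hc] at h1 h2 hinf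
  choose f hf hdata using hinf
  let ν : ℕ → ℕ := fun k => Nat.rec (f 1) (fun _ m => f (m + 2)) k
  have hν0 : ν 0 = f 1 := rfl
  have hνs : ∀ k, ν (k + 1) = f (ν k + 2) := fun k => rfl
  have hstep : ∀ k, ν k + 2 ≤ ν (k + 1) := fun k => by rw [hνs]; exact hf _
  have hmono : ∀ k l, k < l → ν k + 2 ≤ ν l := by
    intro k l hkl
    induction l, hkl using Nat.le_induction with
    | base => exact hstep k
    | succ l _ ih => exact (ih.trans (by omega)).trans (hstep l)
  have hmono' : ∀ k l, k ≤ l → ν k ≤ ν l := by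
    intro k l hkl
    rcases hkl.eq_or_lt with rfl | h
    · exact le_rfl
    · have := hmono k l h
      omega
  have hpos : ∀ k, 1 ≤ ν k := fun k => (hf 1).trans (hmono' 0 k (Nat.zero_le k))
  have hdata' : ∀ k, ∃ K : ModuleCat.{u} A, IsSyzygyOf (c.M 0) (ν k) K ∧
      ShortResolution A V K := by
    intro k
    cases k with
    | zero => exact hdata 1
    | succ k => exact hdata (ν k + 2)
  have hproj := ht c (ν t) (fun k => ν k) (fun k l hkl => hmono k l hkl) (fun k => hpos k)
    (fun k => hmono' k t (by have := k.2; omega)) (fun i hi _ => h1 i hi)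
    (fun i hi _ => h2 i hi) (fun k => hdata' k)
  rw [hc] at hproj
  exact hproj

end

end Vale.Agent.P195
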